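import Vale.Agent.P143.Noise

/-!
Cayley graphs.
-/

open MeasureTheory SimpleGraph

namespace Vale.Agent.P143

theorem measurable_factor_fixed {V : Type} [Countable V] (G : SimpleGraph V) :
    Measurable fun (U : V → unitInterval) (e : G.edgeSet) => factor G U e.1 :=
  measurable_pi_lambda _ fun e =>
    measurable_Phi measurable_const (measurable_noise measurable_const measurable_id) e.1

lemma cayley_locFin {Γ : Type} [Group Γ] (S : Finset Γ) : LocFin (mulCayley (S : Set Γ)) := by
  intro v
  refine ((S.finite_toSet.image fun g => v * g).union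
    (S.finite_toSet.image fun g => v * g⁻¹)).subset fun w hw => ?_
  obtain ⟨_, g, hg, h | h⟩ := (mulCayley_adj' _ _ _).1 hw
  · exact Or.inl ⟨g, hg, h⟩
  · exact Or.inr ⟨g, hg, by simp [h]⟩

lemma cayley_connected {Γ : Type} [Group Γ] (S : Finset Γ)
    (hS : Subgroup.closure (S : Set Γ) = ⊤) : (mulCayley (S : Set Γ)).Connected := by
  have key : ∀ x ∈ Subgroup.closure (S : Set Γ),
      ∀ u, (mulCayley (S : Set Γ)).Reachable u (u * x) := by
    intro x hx
    induction hx using Subgroup.closure_induction with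
    | mem g hg =>
      intro u
      by_cases h : u = u * g
      · rw [← h]
      · exact Adj.reachable ((mulCayley_adj' _ _ _).2 ⟨h, g, hg, Or.inl rfl⟩)
    | one => intro u; rw [mul_one]
    | mul x y _ _ hx hy => intro u; rw [← mul_assoc]; exact (hx u).trans (hy _)
    | inv x _ hx => intro u; simpa using (hx (u * x⁻¹)).symm
  refine ⟨fun u v => ?_⟩
  simpa using key (u⁻¹ * v) (by rw [hS]; trivial) u

theorem cayley_factor (Γ : Type) [Group Γ] (S : Finset Γ)
    (hS : Subgroup.closure (S : Set Γ) = ⊤) :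
    ∃ Φ : (Γ → unitInterval) → ((mulCayley (S : Set Γ)).edgeSet → Bool),
      Measurable Φ ∧
      (∀ (γ : Γ) (U : Γ → unitInterval) (e e' : (mulCayley (S : Set Γ)).edgeSet),
        e'.1 = e.1.map (fun x => γ * x) → Φ (fun x => U (γ⁻¹ * x)) e' = Φ U e) ∧
      IsFUSF (mulCayley (S : Set Γ)) ((iid Γ).map Φ) := by
  have hG := cayley_locFin S
  have hc := cayley_connected S hS
  have := countable_of_connected hG hc
  refine ⟨fun U e => factor _ U e.1, measurable_factor_fixed _, ?_, isFUSF_factor hG hc⟩
  intro γ U e e' h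
  let φ : mulCayley (S : Set Γ) ≃g mulCayley (S : Set Γ) :=
    ⟨Equiv.mulLeft γ, mulCayley_adj_mul_iff_right⟩
  simp only [h]
  exact factor_iso φ U e.1

end Vale.Agent.P143
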