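import Vale.Agent.P143.Kirchhoff

/-!
Free effective conductance through Dirichlet's principle, and the edge probability.
-/

open Finset SimpleGraph Filter Topology

namespace Vale.Agent.P143

open scoped Classical

variable {V W : Type}

/-- Energy of a potential on a finite set of ordered pairs. -/
noncomputable def energy (P : Finset (V × V)) (c : V × V → ℝ) (φ : V → ℝ) : ℝ :=
  ∑ p ∈ P, c p * (φ p.1 - φ p.2) ^ 2

/-- Minimal energy on a finite set of ordered pairs. -/
noncomputable def condOn (P : Finset (V × V)) (c : V × V → ℝ) (a b : V) : ℝ :=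
  ⨅ φ : {φ : V → ℝ // φ a - φ b = 1}, energy P c φ.1

/-- Free effective conductance (times two). -/
noncomputable def cond (c : V × V → ℝ) (a b : V) : ℝ :=
  ⨆ P : Finset (V × V), condOn P c a b

/-- The edge probability. -/
noncomputable def prob (c : V × V → ℝ) (a b : V) : ℝ :=
  (c (a, b) + c (b, a)) / cond c a b

lemma energy_nonneg (P : Finset (V × V)) {c : V × V → ℝ} (hc : ∀ p, 0 ≤ c p) (φ : V → ℝ) :
    0 ≤ energy P c φ :=
  sum_nonneg fun p _ => mul_nonneg (hc p) (sq_nonneg _)

lemma energy_mono {P Q : Finset (V × V)} (h : P ⊆ Q) {c : V × V → ℝ} (hc : ∀ p, 0 ≤ c p)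
    (φ : V → ℝ) : energy P c φ ≤ energy Q c φ :=
  sum_le_sum_of_subset_of_nonneg h fun p _ _ => mul_nonneg (hc p) (sq_nonneg _)

lemma pot_nonempty {a b : V} (hab : a ≠ b) : Nonempty {φ : V → ℝ // φ a - φ b = 1} :=
  ⟨⟨fun x => if x = a then 1 else 0, by simp [hab.symm]⟩⟩

lemma condOn_le (P : Finset (V × V)) {c : V × V → ℝ} (hc : ∀ p, 0 ≤ c p) {a b : V}
    (φ : V → ℝ) (hφ : φ a - φ b = 1) : condOn P c a b ≤ energy P c φ :=
  ciInf_le (f := fun φ : {φ : V → ℝ // φ a - φ b = 1} => energy P c φ.1)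
    ⟨0, by rintro _ ⟨ψ, rfl⟩; exact energy_nonneg P hc _⟩ ⟨φ, hφ⟩

lemma le_condOn (P : Finset (V × V)) (c : V × V → ℝ) {a b : V} (hab : a ≠ b) {r : ℝ}
    (h : ∀ φ : V → ℝ, φ a - φ b = 1 → r ≤ energy P c φ) : r ≤ condOn P c a b := by
  have := pot_nonempty hab
  exact le_ciInf fun φ => h φ.1 φ.2

lemma condOn_nonneg (P : Finset (V × V)) {c : V × V → ℝ} (hc : ∀ p, 0 ≤ c p) (a b : V) :
    0 ≤ condOn P c a b :=
  Real.iInf_nonneg fun φ => energy_nonneg P hc φ.1

lemma condOn_mono {P Q : Finset (V × V)} (h : P ⊆ Q) {c : V × V → ℝ} (hc : ∀ p, 0 ≤ c p)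
    {a b : V} (hab : a ≠ b) : condOn P c a b ≤ condOn Q c a b :=
  le_condOn Q c hab fun φ hφ => (condOn_le P hc φ hφ).trans (energy_mono h hc φ)

lemma condOn_le_mul (P : Finset (V × V)) {c c' : V × V → ℝ} (hc : ∀ p, 0 ≤ c p)
    {a b : V} (hab : a ≠ b) {l : ℝ} (hl : 0 < l) (h : ∀ p ∈ P, c p ≤ l * c' p) :
    condOn P c a b ≤ l * condOn P c' a b := by
  rw [← div_le_iff₀' hl]
  refine le_condOn P c' hab fun φ hφ => ?_
  rw [div_le_iff₀' hl]
  refine (condOn_le P hc φ hφ).trans ?_
  unfold energy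
  rw [mul_sum]
  refine sum_le_sum fun p hp => ?_
  rw [← mul_assoc]
  exact mul_le_mul_of_nonneg_right (h p hp) (sq_nonneg _)

/-- Finitely many pairs at `a` carry weight. -/
def FinAt (c : V × V → ℝ) (a : V) : Prop := {v | c (a, v) ≠ 0 ∨ c (v, a) ≠ 0}.Finite

lemma bdd_condOn {c : V × V → ℝ} (hc : ∀ p, 0 ≤ c p) {a b : V} (hab : a ≠ b) (hf : FinAt c a) :
    BddAbove (Set.range fun P : Finset (V × V) => condOn P c a b) := by
  let N := hf.toFinset
  let Q : Finset (V × V) := N.image (fun v => (a, v)) ∪ N.image (fun v => (v, a))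
  refine ⟨∑ p ∈ Q, c p, ?_⟩
  rintro _ ⟨P, rfl⟩
  refine (condOn_le P hc (fun x => if x = a then 1 else 0) (by simp [hab.symm])).trans ?_
  unfold energy
  have h1 : ∀ p ∈ P, c p * ((if p.1 = a then (1 : ℝ) else 0) - (if p.2 = a then 1 else 0)) ^ 2 ≤
      if p ∈ Q then c p else 0 := by
    rintro ⟨u, v⟩ _
    by_cases hQ : (u, v) ∈ Q
    · simp only [hQ, if_true]
      have := hc (u, v)
      by_cases h1 : u = a <;> by_cases h2 : v = a <;> simp [h1, h2] <;> simp_all
    · simp only [hQ, if_false]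
      by_cases h1 : u = a
      · subst h1
        have : c (u, v) = 0 := by
          by_contra hne
          apply hQ
          simp only [Q, mem_union, mem_image]
          exact Or.inl ⟨v, (Set.Finite.mem_toFinset hf).2 (Or.inl hne), rfl⟩
        simp [this]
      · by_cases h2 : v = a
        · subst h2
          have : c (u, v) = 0 := by
            by_contra hne
            apply hQ
            simp only [Q, mem_union, mem_image]
            exact Or.inr ⟨u, (Set.Finite.mem_toFinset hf).2 (Or.inr hne), rfl⟩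
          simp [this]
        · simp [h1, h2]
  refine (sum_le_sum h1).trans ?_
  rw [← sum_filter]
  exact sum_le_sum_of_subset_of_nonneg (fun p hp => (mem_filter.1 hp).2) fun p _ _ => hc p

lemma condOn_le_cond {c : V × V → ℝ} (hc : ∀ p, 0 ≤ c p) {a b : V} (hab : a ≠ b)
    (hf : FinAt c a) (P : Finset (V × V)) : condOn P c a b ≤ cond c a b :=
  le_ciSup (bdd_condOn hc hab hf) P

lemma cond_le {c : V × V → ℝ} {a b : V} {r : ℝ} (h : ∀ P, condOn P c a b ≤ r) :
    cond c a b ≤ r := ciSup_le h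

lemma cond_nonneg {c : V × V → ℝ} (hc : ∀ p, 0 ≤ c p) (a b : V) : 0 ≤ cond c a b :=
  Real.iSup_nonneg fun P => condOn_nonneg P hc a b

lemma add_le_cond {c : V × V → ℝ} (hc : ∀ p, 0 ≤ c p) {a b : V} (hab : a ≠ b)
    (hf : FinAt c a) : c (a, b) + c (b, a) ≤ cond c a b := by
  refine le_trans ?_ (condOn_le_cond hc hab hf {(a, b), (b, a)})
  refine le_condOn _ c hab fun φ hφ => ?_
  unfold energy
  have : (a, b) ≠ (b, a) := by simp [hab]
  rw [sum_pair this]
  have h2 : φ b - φ a = -1 := by linarith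
  simp [hφ, h2]

lemma prob_nonneg {c : V × V → ℝ} (hc : ∀ p, 0 ≤ c p) (a b : V) : 0 ≤ prob c a b :=
  div_nonneg (add_nonneg (hc _) (hc _)) (cond_nonneg hc a b)

lemma prob_le_one {c : V × V → ℝ} (hc : ∀ p, 0 ≤ c p) {a b : V} (hab : a ≠ b)
    (hf : FinAt c a) : prob c a b ≤ 1 :=
  div_le_one_of_le₀ (add_le_cond hc hab hf) (cond_nonneg hc a b)

lemma cond_le_mul {c c' : V × V → ℝ} (hc : ∀ p, 0 ≤ c p) (hc' : ∀ p, 0 ≤ c' p)
    {a b : V} (hab : a ≠ b) (hf : FinAt c' a) {l : ℝ} (hl : 0 < l) (h : ∀ p, c p ≤ l * c' p) :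
    cond c a b ≤ l * cond c' a b :=
  cond_le fun P => (condOn_le_mul P hc hab hl fun p _ => h p).trans
    (mul_le_mul_of_nonneg_left (condOn_le_cond hc' hab hf P) hl.le)

/-- One-sided Lipschitz estimate from Rayleigh monotonicity. -/
lemma prob_sub_le {c c' : V × V → ℝ} (hc : ∀ p, 0 ≤ c p) (hc' : ∀ p, 0 ≤ c' p)
    {a b : V} (hab : a ≠ b) (hf : FinAt c a) (hf' : FinAt c' a) {θ : ℝ} (hθ : 0 ≤ θ)
    (h : ∀ p, c p ≤ Real.exp θ * c' p) (h' : ∀ p, c' p ≤ Real.exp θ * c p) :
    prob c a b - prob c' a b ≤ 2 * θ := by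
  have hE := Real.exp_pos θ
  have h1 := cond_le_mul hc' hc hab hf hE h'
  have h2 : c (a, b) + c (b, a) ≤ Real.exp θ * (c' (a, b) + c' (b, a)) := by
    have := h (a, b); have := h (b, a); linarith
  have hp1 := prob_le_one hc hab hf
  have hp0 := prob_nonneg hc a b
  rcases (add_nonneg (hc (a, b)) (hc (b, a))).eq_or_lt with h0 | h0
  · have : prob c a b = 0 := by simp [prob, ← h0]
    have := prob_nonneg hc' a b
    linarith
  have hC : 0 < cond c a b := h0.trans_le (add_le_cond hc hab hf)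
  have h0' : 0 < c' (a, b) + c' (b, a) := by
    by_contra hh
    have : Real.exp θ * (c' (a, b) + c' (b, a)) ≤ 0 :=
      mul_nonpos_of_nonneg_of_nonpos hE.le (not_lt.1 hh)
    linarith
  have hC' : 0 < cond c' a b := h0'.trans_le (add_le_cond hc' hab hf')
  have h3 : prob c a b ≤ Real.exp θ * Real.exp θ * prob c' a b := by
    unfold prob
    rw [div_le_iff₀ hC, mul_div_assoc', div_mul_eq_mul_div, le_div_iff₀ hC']
    calc (c (a, b) + c (b, a)) * cond c' a b
        ≤ (Real.exp θ * (c' (a, b) + c' (b, a))) * (Real.exp θ * cond c a b) :=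
          mul_le_mul h2 h1 hC'.le (by positivity)
      _ = _ := by ring
  have h4 : Real.exp (-(2 * θ)) * prob c a b ≤ prob c' a b := by
    have : Real.exp (-(2 * θ)) * (Real.exp θ * Real.exp θ) = 1 := by
      rw [← Real.exp_add, ← Real.exp_add]; simp; ring
    calc Real.exp (-(2 * θ)) * prob c a b
        ≤ Real.exp (-(2 * θ)) * (Real.exp θ * Real.exp θ * prob c' a b) :=
          mul_le_mul_of_nonneg_left h3 (Real.exp_pos _).le
      _ = prob c' a b := by rw [← mul_assoc, this, one_mul]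
  have h5 := Real.add_one_le_exp (-(2 * θ))
  nlinarith

lemma abs_prob_sub_le {c c' : V × V → ℝ} (hc : ∀ p, 0 ≤ c p) (hc' : ∀ p, 0 ≤ c' p)
    {a b : V} (hab : a ≠ b) (hf : FinAt c a) (hf' : FinAt c' a) {θ : ℝ} (hθ : 0 ≤ θ)
    (h : ∀ p, c p ≤ Real.exp θ * c' p) (h' : ∀ p, c' p ≤ Real.exp θ * c p) :
    |prob c a b - prob c' a b| ≤ 2 * θ := by
  rw [abs_sub_le_iff]
  exact ⟨prob_sub_le hc hc' hab hf hf' hθ h h', prob_sub_le hc' hc hab hf' hf hθ h' h⟩

/-- Continuity of the free conductance under dominated pointwise convergence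
(from concavity in the conductances). -/
lemma tendsto_cond {c : V × V → ℝ} {cn : ℕ → V × V → ℝ} (hc : ∀ p, 0 ≤ c p)
    (hcn : ∀ n p, 0 ≤ cn n p) {a b : V} (hab : a ≠ b) (hf : FinAt c a) {μ : ℝ} (hμ : 1 ≤ μ)
    (hdom : ∀ n p, cn n p ≤ μ * c p) (hlim : ∀ p, Tendsto (fun n => cn n p) atTop (𝓝 (c p))) :
    Tendsto (fun n => cond (cn n) a b) atTop (𝓝 (cond c a b)) := by
  have hfn : ∀ n, FinAt (cn n) a := by
    intro n
    refine hf.subset fun v hv => ?_
    simp only [Set.mem_ofPred_eq] at hv ⊢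
    by_contra hh
    push Not at hh
    have h1 := hdom n (a, v)
    have h2 := hdom n (v, a)
    rw [hh.1, mul_zero] at h1
    rw [hh.2, mul_zero] at h2
    rcases hv with hv | hv
    · exact hv (le_antisymm h1 (hcn n _))
    · exact hv (le_antisymm h2 (hcn n _))
  set C := cond c a b with hCdef
  have hC0 : 0 ≤ C := cond_nonneg hc a b
  -- approximation
  have key : ∀ ε : ℝ, 0 < ε → ε < 1 → ∀ᶠ n in atTop,
      (1 - ε) * (C - ε) ≤ cond (cn n) a b ∧ cond (cn n) a b ≤ (1 + ε) * (C + (μ - 1) * ε) := by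
    intro ε hε hε1
    obtain ⟨P, hP⟩ : ∃ P, C - ε < condOn P c a b :=
      exists_lt_of_lt_ciSup (by linarith : C - ε < cond c a b)
    have hev : ∀ᶠ n in atTop, ∀ p ∈ P, (1 - ε) * c p ≤ cn n p ∧ cn n p ≤ (1 + ε) * c p := by
      rw [eventually_all_finset]
      intro p _
      rcases (hc p).eq_or_lt with h0 | h0
      · refine Eventually.of_forall fun n => ?_
        have h1 := hdom n p
        have h2 := hcn n p
        rw [← h0] at h1 ⊢
        simp only [mul_zero] at h1 ⊢
        exact ⟨h2, h1⟩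
      · have h1 : (1 - ε) * c p < c p := by nlinarith
        have h2 : c p < (1 + ε) * c p := by nlinarith
        filter_upwards [(hlim p).eventually (lt_mem_nhds h1), (hlim p).eventually (gt_mem_nhds h2)]
          with n hn1 hn2
        exact ⟨hn1.le, hn2.le⟩
    filter_upwards [hev] with n hn
    constructor
    · have h1 : condOn P c a b ≤ (1 - ε)⁻¹ * condOn P (cn n) a b := by
        refine condOn_le_mul P hc hab (inv_pos.2 (by linarith)) fun p hp => ?_
        rw [← div_eq_inv_mul, le_div_iff₀ (by linarith)]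
        have := (hn p hp).1
        linarith
      rw [← div_eq_inv_mul, le_div_iff₀ (by linarith)] at h1
      have h2 := condOn_le_cond (hcn n) hab (hfn n) P
      nlinarith
    · refine cond_le fun P' => ?_
      refine (condOn_mono (subset_union_right (s₁ := P)) (hcn n) hab).trans ?_
      set Q := P ∪ P' with hQ
      have hPQ : P ⊆ Q := subset_union_left
      have h1 : ∀ φ : V → ℝ, φ a - φ b = 1 →
          (condOn Q (cn n) a b / (1 + ε) + (μ - 1) * condOn P c a b) / μ ≤ energy Q c φ := by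
        intro φ hφ
        rw [div_le_iff₀ (by linarith)]
        have h2 : energy Q (cn n) φ ≤ (1 + ε) * (μ * energy Q c φ - (μ - 1) * energy P c φ) := by
          have e1 : energy Q c φ = energy P c φ + energy (Q \ P) c φ := by
            unfold energy; rw [← sum_sdiff hPQ]; ring
          have e2 : energy Q (cn n) φ = energy P (cn n) φ + energy (Q \ P) (cn n) φ := by
            unfold energy; rw [← sum_sdiff hPQ]; ring
          have e3 : energy P (cn n) φ ≤ (1 + ε) * energy P c φ := by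
            unfold energy
            rw [mul_sum]
            refine sum_le_sum fun p hp => ?_
            rw [← mul_assoc]
            exact mul_le_mul_of_nonneg_right (hn p hp).2 (sq_nonneg _)
          have e4 : energy (Q \ P) (cn n) φ ≤ μ * energy (Q \ P) c φ := by
            unfold energy
            rw [mul_sum]
            refine sum_le_sum fun p _ => ?_
            rw [← mul_assoc]
            exact mul_le_mul_of_nonneg_right (hdom n p) (sq_nonneg _)
          have e5 := energy_nonneg (Q \ P) hc φ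
          rw [e1, e2]
          have : 0 ≤ ε * (μ * energy (Q \ P) c φ) := by positivity
          nlinarith
        have h3 := condOn_le Q (hcn n) φ hφ
        have h4 := condOn_le P hc φ hφ
        have h5 : condOn Q (cn n) a b / (1 + ε) ≤ μ * energy Q c φ - (μ - 1) * energy P c φ := by
          rw [div_le_iff₀ (by linarith)]; linarith
        have h6 : (μ - 1) * condOn P c a b ≤ (μ - 1) * energy P c φ :=
          mul_le_mul_of_nonneg_left h4 (by linarith)
        linarith
      have h2 := (le_condOn Q c hab h1).trans (condOn_le_cond hc hab hf Q)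
      rw [div_le_iff₀ (by linarith), ← hCdef] at h2
      have h3 : condOn Q (cn n) a b / (1 + ε) ≤ C + (μ - 1) * ε := by
        have : (μ - 1) * (C - ε) ≤ (μ - 1) * condOn P c a b :=
          mul_le_mul_of_nonneg_left hP.le (by linarith)
        nlinarith
      rw [div_le_iff₀ (by linarith)] at h3
      linarith
  have lo : Tendsto (fun ε : ℝ => (1 - ε) * (C - ε)) (𝓝[>] 0) (𝓝 C) := by
    have : Tendsto (fun ε : ℝ => (1 - ε) * (C - ε)) (𝓝 0) (𝓝 ((1 - 0) * (C - 0))) :=
      (by fun_prop : Continuous fun ε : ℝ => (1 - ε) * (C - ε)).tendsto 0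
    simpa using this.mono_left nhdsWithin_le_nhds
  have hi : Tendsto (fun ε : ℝ => (1 + ε) * (C + (μ - 1) * ε)) (𝓝[>] 0) (𝓝 C) := by
    have : Tendsto (fun ε : ℝ => (1 + ε) * (C + (μ - 1) * ε)) (𝓝 0)
        (𝓝 ((1 + 0) * (C + (μ - 1) * 0))) :=
      (by fun_prop : Continuous fun ε : ℝ => (1 + ε) * (C + (μ - 1) * ε)).tendsto 0
    simpa using this.mono_left nhdsWithin_le_nhds
  have hsm : ∀ᶠ ε : ℝ in 𝓝[>] 0, 0 < ε ∧ ε < 1 := by
    filter_upwards [Ioo_mem_nhdsGT (zero_lt_one (α := ℝ))] with ε hε using hε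
  rw [tendsto_order]
  constructor
  · intro r hr
    obtain ⟨ε, h1, h2, h3⟩ := ((lo.eventually (lt_mem_nhds hr)).and hsm).exists
    filter_upwards [key ε h2 h3] with n hn using h1.trans_le hn.1
  · intro r hr
    obtain ⟨ε, h1, h2, h3⟩ := ((hi.eventually (gt_mem_nhds hr)).and hsm).exists
    filter_upwards [key ε h2 h3] with n hn using hn.2.trans_lt h1

lemma tendsto_prob {c : V × V → ℝ} {cn : ℕ → V × V → ℝ} (hc : ∀ p, 0 ≤ c p)
    (hcn : ∀ n p, 0 ≤ cn n p) {a b : V} (hab : a ≠ b) (hf : FinAt c a) {μ : ℝ} (hμ : 1 ≤ μ)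
    (hdom : ∀ n p, cn n p ≤ μ * c p) (hlim : ∀ p, Tendsto (fun n => cn n p) atTop (𝓝 (c p)))
    (hpos : 0 < c (a, b)) :
    Tendsto (fun n => prob (cn n) a b) atTop (𝓝 (prob c a b)) := by
  unfold prob
  refine ((hlim _).add (hlim _)).div (tendsto_cond hc hcn hab hf hμ hdom hlim) ?_
  have := add_le_cond hc hab hf
  have := hc (b, a)
  linarith

/-- Naturality under injections that cover the support. -/
lemma cond_comp (f : W → V) (hf : Function.Injective f) (c : V × V → ℝ)
    (hs : ∀ p, c p ≠ 0 → p ∈ Set.range (Prod.map f f)) (a b : W) :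
    cond c (f a) (f b) = cond (c ∘ Prod.map f f) a b := by
  have hff : Function.Injective (Prod.map f f) := hf.prodMap hf
  have hE : ∀ (P : Finset (V × V)) (φ : V → ℝ),
      energy P c φ = energy (P.preimage (Prod.map f f) hff.injOn) (c ∘ Prod.map f f) (φ ∘ f) := by
    intro P φ
    unfold energy
    rw [← sum_preimage (Prod.map f f) P hff.injOn (fun p => c p * (φ p.1 - φ p.2) ^ 2)]
    · rfl
    · intro p _ hp
      have : c p = 0 := by
        by_contra h
        exact hp (hs p h)
      simp [this]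
  have hC : ∀ P : Finset (V × V), condOn P c (f a) (f b) =
      condOn (P.preimage (Prod.map f f) hff.injOn) (c ∘ Prod.map f f) a b := by
    intro P
    unfold condOn iInf
    congr 1
    ext r
    constructor
    · rintro ⟨φ, rfl⟩
      exact ⟨⟨φ.1 ∘ f, φ.2⟩, (hE P φ.1).symm⟩
    · rintro ⟨ψ, rfl⟩
      have h1 : Function.extend f ψ.1 0 ∘ f = ψ.1 := Function.extend_comp hf _ _
      refine ⟨⟨Function.extend f ψ.1 0, ?_⟩, ?_⟩
      · rw [hf.extend_apply, hf.extend_apply]; exact ψ.2
      · simp only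
        rw [hE, h1]
  unfold cond iSup
  congr 1
  ext r
  constructor
  · rintro ⟨P, rfl⟩
    exact ⟨_, (hC P).symm⟩
  · rintro ⟨P', rfl⟩
    refine ⟨P'.image (Prod.map f f), ?_⟩
    simp only
    rw [hC]
    congr 1
    ext p
    simp only [mem_preimage, mem_image]
    constructor
    · rintro ⟨q, hq, h⟩
      rwa [← hff h]
    · intro h
      exact ⟨p, h, rfl⟩

lemma prob_comp (f : W → V) (hf : Function.Injective f) (c : V × V → ℝ)
    (hs : ∀ p, c p ≠ 0 → p ∈ Set.range (Prod.map f f)) (a b : W) :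
    prob c (f a) (f b) = prob (c ∘ Prod.map f f) a b := by
  unfold prob
  rw [cond_comp f hf c hs]
  rfl

/-- Kirchhoff's theorem. -/
lemma prob_eq_tree [Fintype V] {q : V × V → ℝ} (hq : ∀ p, 0 < q p) {K : SimpleGraph V}
    (hK : K.Connected) {a b : V} (hab : K.Adj a b) :
    prob (fun p => if K.Adj p.1 p.2 then q p * q p.swap else 0) a b =
      (∑ T ∈ trees K, if T.Adj a b then wt q T else 0) / Ztree q K := by
  set c : V × V → ℝ := fun p => if K.Adj p.1 p.2 then q p * q p.swap else 0 with hcdef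
  have hc : ∀ p, 0 ≤ c p := by
    intro p
    simp only [hcdef]
    split_ifs
    · exact (mul_pos (hq _) (hq _)).le
    · exact le_rfl
  have hfin : FinAt c a := Set.toFinite _
  have h1 : cond c a b = 2 * Ztree q K / Zfor q K a b := by
    apply le_antisymm
    · refine cond_le fun P => (condOn_mono (subset_univ P) hc hab.ne).trans ?_
      obtain ⟨ψ, h1, h2⟩ := energy_attained hq hK hab.ne
      exact (condOn_le univ hc ψ h1).trans h2.le
    · refine le_trans ?_ (condOn_le_cond hc hab.ne hfin univ)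
      exact le_condOn univ c hab.ne fun ψ hψ => energy_ge hq hK hab.ne ψ hψ
  have hZ := Zfor_pos hq hK hab.ne
  have hZ' := Ztree_pos hq hK
  unfold prob
  rw [h1, sum_trees_adj q hab]
  simp only [hcdef, hab, hab.symm, if_true, Prod.swap_prod_mk]
  field_simp
  ring

/-- Measurability of the conductance along a measurable nonnegative family. -/
lemma measurable_cond [Countable V] {Ω : Type} [MeasurableSpace Ω] {c : Ω → V × V → ℝ}
    (hm : Measurable c) (hc : ∀ ω p, 0 ≤ c ω p) (a b : V) :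
    Measurable fun ω => cond (c ω) a b := by
  unfold cond
  refine Measurable.iSup fun P => ?_
  by_cases hab : a = b
  · subst hab
    have : IsEmpty {φ : V → ℝ // φ a - φ a = 1} := ⟨fun φ => by simpa using φ.2⟩
    simp [condOn, Real.iInf_of_isEmpty]
  refine measurable_of_Iio fun r => ?_
  have : (fun ω => condOn P (c ω) a b) ⁻¹' Set.Iio r =
      c ⁻¹' (⋃ φ : {φ : V → ℝ // φ a - φ b = 1}, {x | energy P x φ.1 < r}) := by
    ext ω
    simp only [Set.mem_preimage, Set.mem_Iio, Set.mem_iUnion, Set.mem_ofPred_eq]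
    constructor
    · intro h
      have := pot_nonempty hab
      exact exists_lt_of_ciInf_lt h
    · rintro ⟨φ, hφ⟩
      exact (condOn_le P (hc ω) φ.1 φ.2).trans_lt hφ
  rw [this]
  refine hm (IsOpen.measurableSet (isOpen_iUnion fun φ => isOpen_lt ?_ continuous_const))
  unfold energy
  fun_prop

lemma measurable_prob [Countable V] {Ω : Type} [MeasurableSpace Ω] {c : Ω → V × V → ℝ}
    (hm : Measurable c) (hc : ∀ ω p, 0 ≤ c ω p) (a b : V) :
    Measurable fun ω => prob (c ω) a b := by
  unfold prob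
  exact (((measurable_pi_apply _).comp hm).add ((measurable_pi_apply _).comp hm)).div
    (measurable_cond hm hc a b)

end Vale.Agent.P143
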