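import Mathlib

open MeasureTheory ProbabilityTheory Filter Topology

namespace Vale.Agent.P143

/-- The indicator vectors in `{0,1}^{E(G)}` of the spanning trees of the subgraph `H` of `G`. -/
def spanningTrees {V : Type} {G : SimpleGraph V} (H : G.Subgraph) : Set (G.edgeSet → Bool) :=
  {ω | ∃ T : SimpleGraph H.verts, T ≤ H.coe ∧ T.IsTree ∧
    ∀ e : G.edgeSet, ω e = true ↔ e.1 ∈ (T.map Subtype.val).edgeSet}

/-- The uniform spanning tree of `H`, as a measure on `{0,1}^{E(G)}`. -/
noncomputable def ust {V : Type} {G : SimpleGraph V} (H : G.Subgraph) :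
    Measure (G.edgeSet → Bool) :=
  uniformOn (spanningTrees H)

/-- An increasing sequence of finite connected subgraphs with union `G`. -/
def IsExhaustion {V : Type} (G : SimpleGraph V) (H : ℕ → G.Subgraph) : Prop :=
  (∀ n, (H n).verts.Finite) ∧ (∀ n, (H n).Connected) ∧ Monotone H ∧ ⨆ n, H n = ⊤

/-- `μ` is the free uniform spanning forest of `G`: exhaustions exist, and along every exhaustion
the uniform spanning trees converge weakly to the probability measure `μ`. -/
def IsFUSF {V : Type} (G : SimpleGraph V) (μ : Measure (G.edgeSet → Bool)) : Prop :=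
  IsProbabilityMeasure μ ∧ (∃ H, IsExhaustion G H) ∧
    ∀ H, IsExhaustion G H → ∀ f : BoundedContinuousFunction (G.edgeSet → Bool) ℝ,
      Tendsto (fun n => ∫ ω, f ω ∂ust (H n)) atTop (𝓝 (∫ ω, f ω ∂μ))

/-- The law of i.i.d. Uniform`[0,1]` labels on `V`. -/
noncomputable def iid (V : Type) : Measure (V → unitInterval) :=
  Measure.infinitePi fun _ : V => (volume : Measure unitInterval)

/-- A Borel function of a vertex-labelled graph on `ℕ` with a distinguished edge that depends only
on the isomorphism class. -/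
def IsGraphFactorMap (Φ : SimpleGraph ℕ → (ℕ → unitInterval) → Sym2 ℕ → Bool) : Prop :=
  (∀ e, Measurable fun p : SimpleGraph ℕ × (ℕ → unitInterval) => Φ p.1 p.2 e) ∧
    ∀ (G G' : SimpleGraph ℕ) (φ : G ≃g G') (U : ℕ → unitInterval) (e : Sym2 ℕ),
      Φ G' (fun v => U (φ.symm v)) (e.map φ) = Φ G U e

/-- A unimodular random graph: a law of rooted connected locally finite graphs on `ℕ` that satisfies
the mass transport principle. -/
def IsUnimodular (P : Measure (SimpleGraph ℕ × ℕ)) : Prop :=
  IsProbabilityMeasure P ∧ (∀ᵐ p ∂P, p.1.Connected ∧ ∀ v, (p.1.neighborSet v).Finite) ∧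
    ∀ f : SimpleGraph ℕ × ℕ × ℕ → ENNReal, Measurable f →
      (∀ (G G' : SimpleGraph ℕ) (φ : G ≃g G') (u v : ℕ), f (G', φ u, φ v) = f (G, u, v)) →
      ∫⁻ p, ∑' v, f (p.1, p.2, v) ∂P = ∫⁻ p, ∑' v, f (p.1, v, p.2) ∂P

end Vale.Agent.P143
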