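import Vale.Agent.P143.Laplace

/-!
In finite volume the Euler scheme started from Laplace noise has asymptotically the law of
`Z + t X`, by comparison with the chain that resamples `X` from the posterior.
-/

open Finset Filter Topology MeasureTheory

namespace Vale.Agent.P143

variable {ι α : Type} [Fintype ι]

/-- Posterior weights. -/
noncomputable def post (S : Finset α) (x : α → ι → ℝ) (s : ℝ) (y : ι → ℝ) (ω : α) : ℝ :=
  lik (s • x ω) y / ∑ ω' ∈ S, lik (s • x ω') y

lemma sum_lik_pos {S : Finset α} (hS : S.Nonempty) (x : α → ι → ℝ) (s : ℝ) (y : ι → ℝ) :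
    0 < ∑ ω' ∈ S, lik (s • x ω') y := sum_pos (fun _ _ => lik_pos _ _) hS

lemma post_nonneg {S : Finset α} (hS : S.Nonempty) (x : α → ι → ℝ) (s : ℝ) (y : ι → ℝ) (ω : α) :
    0 ≤ post S x s y ω := div_nonneg (lik_pos _ _).le (sum_lik_pos hS x s y).le

lemma sum_post {S : Finset α} (hS : S.Nonempty) (x : α → ι → ℝ) (s : ℝ) (y : ι → ℝ) :
    ∑ ω ∈ S, post S x s y ω = 1 := by
  unfold post
  rw [← sum_div, div_self (sum_lik_pos hS x s y).ne']

lemma continuous_post {S : Finset α} (hS : S.Nonempty) (x : α → ι → ℝ) (s : ℝ) (ω : α) :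
    Continuous fun y => post S x s y ω :=
  (continuous_lik _).div (continuous_finsetSum _ fun _ _ => continuous_lik _)
    fun y => (sum_lik_pos hS x s y).ne'

/-- The resampling chain, as an operator on test functions. -/
noncomputable def chain (S : Finset α) (x : α → ι → ℝ) (η : ℝ) (g : (ι → ℝ) → ℝ) :
    ℕ → ℕ → (ι → ℝ) → ℝ
  | 0, _ => g
  | j + 1, k => fun w => ∑ ω ∈ S, post S x (k * η) w ω * chain S x η g j (k + 1) (w + η • x ω)

lemma continuous_chain {S : Finset α} (hS : S.Nonempty) (x : α → ι → ℝ) (η : ℝ)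
    {g : (ι → ℝ) → ℝ} (hg : Continuous g) (j k : ℕ) : Continuous (chain S x η g j k) := by
  induction j generalizing k with
  | zero => exact hg
  | succ j ih =>
    exact continuous_finsetSum _ fun ω _ => (continuous_post hS x _ ω).mul
      ((ih (k + 1)).comp (continuous_id.add continuous_const))

lemma abs_chain_le {S : Finset α} (hS : S.Nonempty) (x : α → ι → ℝ) (η : ℝ)
    {g : (ι → ℝ) → ℝ} (hg : ∀ y, |g y| ≤ 1) (j k : ℕ) (w : ι → ℝ) : |chain S x η g j k w| ≤ 1 := by
  induction j generalizing k w with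
  | zero => exact hg w
  | succ j ih =>
    simp only [chain]
    refine (abs_sum_le_sum_abs _ _).trans ?_
    rw [← sum_post hS x (k * η) w]
    refine sum_le_sum fun ω _ => ?_
    rw [abs_mul, abs_of_nonneg (post_nonneg hS x _ _ _)]
    exact mul_le_of_le_one_right (post_nonneg hS x _ _ _) (ih _ _)

lemma integrable_lik_mul (a : ι → ℝ) {f : (ι → ℝ) → ℝ} (hf : Continuous f) (hb : ∀ y, |f y| ≤ 1) :
    Integrable (fun y => lik a y * f y) (lapPi ι) := by
  refine Integrable.of_bound ((continuous_lik a).mul hf).aestronglyMeasurable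
    (∏ i, Real.exp |a i|) (ae_of_all _ fun y => ?_)
  rw [Real.norm_eq_abs, abs_mul, abs_of_pos (lik_pos a y)]
  exact (mul_le_of_le_one_right (lik_pos a y).le (hb y)).trans (lik_le a y)

lemma chain_exact {S : Finset α} (hS : S.Nonempty) (x : α → ι → ℝ) (η : ℝ)
    {g : (ι → ℝ) → ℝ} (hg : Continuous g) (hb : ∀ y, |g y| ≤ 1) (j k : ℕ) :
    ∑ ω ∈ S, ∫ z, chain S x η g j k (z + ((k : ℝ) * η) • x ω) ∂lapPi ι =
      ∑ ω ∈ S, ∫ z, g (z + (((k + j : ℕ) : ℝ) * η) • x ω) ∂lapPi ι := by
  induction j generalizing k with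
  | zero => rfl
  | succ j ih =>
    rw [show k + (j + 1) = (k + 1) + j by ring, ← ih (k + 1)]
    simp only [integral_shift (chain S x η g (j + 1) k)]
    rw [← integral_finsetSum _ fun ω _ => integrable_lik_mul _ (continuous_chain hS x η hg _ _)
      (abs_chain_le hS x η hb _ _)]
    have e : ∀ y, ∑ ω ∈ S, lik (((k : ℝ) * η) • x ω) y * chain S x η g (j + 1) k y =
        ∑ ω ∈ S, lik (((k : ℝ) * η) • x ω) y * chain S x η g j (k + 1) (y + η • x ω) := by
      intro y
      rw [← sum_mul]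
      simp only [chain, post]
      rw [mul_sum]
      refine sum_congr rfl fun ω _ => ?_
      have := (sum_lik_pos hS x ((k : ℝ) * η) y).ne'
      field_simp
    simp only [e]
    rw [integral_finsetSum]
    · refine sum_congr rfl fun ω _ => ?_
      rw [← integral_shift (fun y => chain S x η g j (k + 1) (y + η • x ω))]
      congr 1
      funext z
      congr 1
      push_cast
      rw [add_assoc, ← add_smul]
      congr 2
      ring
    · intro ω _
      exact integrable_lik_mul _ ((continuous_chain hS x η hg _ _).comp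
        (continuous_id.add continuous_const)) fun y => abs_chain_le hS x η hb _ _ _

/-- Backward form of the Euler scheme. -/
def back (D : ℝ → (ι → ℝ) → ι → ℝ) (η : ℝ) : ℕ → ℕ → (ι → ℝ) → ι → ℝ
  | 0, _, y => y
  | j + 1, k, y => back D η j (k + 1) fun i => y i + η * D (k * η) y i

omit [Fintype ι] in
lemma back_euler (D : ℝ → (ι → ℝ) → ι → ℝ) (η : ℝ) (z : ι → ℝ) (j k : ℕ) :
    back D η j k (euler D η z k) = euler D η z (k + j) := by
  induction j generalizing k with
  | zero => rfl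
  | succ j ih =>
    rw [show k + (j + 1) = (k + 1) + j by ring, ← ih (k + 1)]
    rfl

/-- Squared Euclidean distance. -/
def sqd (w y : ι → ℝ) : ℝ := ∑ i, (w i - y i) ^ 2

lemma sqd_nonneg (w y : ι → ℝ) : 0 ≤ sqd w y := sum_nonneg fun _ _ => sq_nonneg _

lemma sq_le_sqd (w y : ι → ℝ) (i : ι) : (w i - y i) ^ 2 ≤ sqd w y :=
  single_le_sum (f := fun i => (w i - y i) ^ 2) (fun _ _ => sq_nonneg _) (mem_univ i)

lemma one_step {S : Finset α} (hS : S.Nonempty) {x : α → ι → ℝ}
    (hx : ∀ ω i, 0 ≤ x ω i ∧ x ω i ≤ 1) {D : ℝ → (ι → ℝ) → ι → ℝ} (hD : Good D)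
    (hv : ∀ s y i, D s y i = ∑ ω ∈ S, post S x s y ω * x ω i) {η : ℝ} (h0 : 0 ≤ η) (h1 : η ≤ 1)
    (s : ℝ) (w y : ι → ℝ) :
    ∑ ω ∈ S, post S x s w ω * sqd (w + η • x ω) (fun i => y i + η * D s y i) ≤
      (1 + η * (1 + 128 * Fintype.card ι)) * sqd w y + η ^ 2 * Fintype.card ι := by
  have hd := sqd_nonneg w y
  have key : ∀ i, ∑ ω ∈ S, post S x s w ω * ((w + η • x ω) i - (y i + η * D s y i)) ^ 2 ≤
      (1 + η) * (w i - y i) ^ 2 + 128 * η * sqd w y + η ^ 2 := by
    intro i
    have hb : |D s w i - D s y i| ≤ 8 * (|s - s| + Real.sqrt (sqd w y)) :=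
      hD.lip s s w y _ (fun i => Real.abs_le_sqrt (sq_le_sqd w y i)) i
    rw [sub_self, abs_zero, zero_add] at hb
    have hb2 : (D s w i - D s y i) ^ 2 ≤ 64 * sqd w y := by
      have := sq_le_sq' (abs_le.1 hb).1 (abs_le.1 hb).2
      rw [mul_pow, Real.sq_sqrt hd] at this
      linarith
    set a := w i - y i with ha
    set b := D s w i - D s y i with hb'
    set m := D s w i with hm
    have e : ∀ ω, ((w + η • x ω) i - (y i + η * D s y i)) ^ 2 =
        (a + η * b) ^ 2 + 2 * (a + η * b) * η * (x ω i - m) + η ^ 2 * (x ω i - m) ^ 2 := by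
      intro ω
      simp only [Pi.add_apply, Pi.smul_apply, smul_eq_mul, ha, hb']
      ring
    have hm0 := hD.nonneg s w i
    have hm1 := hD.le_one s w i
    have e2 : ∑ ω ∈ S, post S x s w ω * (x ω i - m) = 0 := by
      simp only [mul_sub, sum_sub_distrib, ← sum_mul, sum_post hS, ← hv, one_mul, hm, sub_self]
    have e3 : ∑ ω ∈ S, post S x s w ω * (x ω i - m) ^ 2 ≤ 1 := by
      rw [← sum_post hS x s w]
      refine sum_le_sum fun ω _ => mul_le_of_le_one_right (post_nonneg hS _ _ _ _) ?_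
      have := hx ω i
      nlinarith [this.1, this.2]
    have e4 : ∑ ω ∈ S, post S x s w ω * ((w + η • x ω) i - (y i + η * D s y i)) ^ 2 =
        (a + η * b) ^ 2 * ∑ ω ∈ S, post S x s w ω +
        2 * (a + η * b) * η * ∑ ω ∈ S, post S x s w ω * (x ω i - m) +
        η ^ 2 * ∑ ω ∈ S, post S x s w ω * (x ω i - m) ^ 2 := by
      simp only [e, mul_sum, ← sum_add_distrib]
      refine sum_congr rfl fun ω _ => ?_
      ring
    rw [e4, sum_post hS, e2]
    have e5 : η ^ 2 * ∑ ω ∈ S, post S x s w ω * (x ω i - m) ^ 2 ≤ η ^ 2 :=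
      mul_le_of_le_one_right (sq_nonneg _) e3
    have e6 : (a + η * b) ^ 2 ≤ (1 + η) * a ^ 2 + 2 * η * b ^ 2 := by
      have h2 : 0 ≤ η * (a - b) ^ 2 := mul_nonneg h0 (sq_nonneg _)
      have h3 : η * η * b ^ 2 ≤ η * 1 * b ^ 2 := by gcongr
      nlinarith
    have e7 : 2 * η * b ^ 2 ≤ 2 * η * (64 * sqd w y) := by gcongr
    nlinarith
  unfold sqd
  simp only [mul_sum]
  rw [sum_comm]
  refine (sum_le_sum fun i _ => key i).trans (le_of_eq ?_)
  simp only [sum_add_distrib, sum_const, card_univ, nsmul_eq_mul, ← mul_sum]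
  unfold sqd
  ring

lemma chain_close {S : Finset α} (hS : S.Nonempty) {x : α → ι → ℝ}
    (hx : ∀ ω i, 0 ≤ x ω i ∧ x ω i ≤ 1) {D : ℝ → (ι → ℝ) → ι → ℝ} (hD : Good D)
    (hv : ∀ s y i, D s y i = ∑ ω ∈ S, post S x s y ω * x ω i) {η : ℝ} (h0 : 0 ≤ η) (h1 : η ≤ 1)
    {g : (ι → ℝ) → ℝ} {M : ℝ} (hM : 0 ≤ M)
    (hg : ∀ y y' δ, (∀ i, |y i - y' i| ≤ δ) → |g y - g y'| ≤ M * δ) {ε : ℝ} (hε : 0 < ε)
    (j k : ℕ) (w y : ι → ℝ) :
    |chain S x η g j k w - g (back D η j k y)| ≤ M * (ε +
      (1 + η * (1 + 128 * Fintype.card ι)) ^ j * (sqd w y + j * η ^ 2 * Fintype.card ι) / ε) := by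
  induction j generalizing k w y with
  | zero =>
    simp only [chain, back, pow_zero, one_mul, Nat.cast_zero, zero_mul, add_zero]
    refine hg _ _ _ fun i => ?_
    have h2 := sq_le_sqd w y i
    have h3 : |w i - y i| ≤ ε + (w i - y i) ^ 2 / ε := by
      rw [← sq_abs, add_div' _ _ _ hε.ne', le_div_iff₀ hε]
      nlinarith [sq_nonneg (|w i - y i| - ε), abs_nonneg (w i - y i)]
    refine h3.trans ?_
    gcongr
  | succ j ih =>
    simp only [chain, back]
    set A := 1 + η * (1 + 128 * (Fintype.card ι : ℝ)) with hA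
    have hA1 : 1 ≤ A := by rw [hA]; exact le_add_of_nonneg_right (by positivity)
    set y' : ι → ℝ := fun i => y i + η * D (k * η) y i with hy'
    have e : ∑ ω ∈ S, post S x (k * η) w ω * chain S x η g j (k + 1) (w + η • x ω) -
        g (back D η j (k + 1) y') =
        ∑ ω ∈ S, post S x (k * η) w ω * (chain S x η g j (k + 1) (w + η • x ω) -
          g (back D η j (k + 1) y')) := by
      simp only [mul_sub, sum_sub_distrib, ← sum_mul, sum_post hS, one_mul]
    rw [e]
    refine (abs_sum_le_sum_abs _ _).trans ?_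
    have h2 : ∀ ω ∈ S, |post S x (k * η) w ω * (chain S x η g j (k + 1) (w + η • x ω) -
          g (back D η j (k + 1) y'))| ≤ post S x (k * η) w ω * (M * (ε +
      A ^ j * (sqd (w + η • x ω) y' + j * η ^ 2 * Fintype.card ι) / ε)) := by
      intro ω _
      rw [abs_mul, abs_of_nonneg (post_nonneg hS _ _ _ _)]
      exact mul_le_mul_of_nonneg_left (ih _ _ _) (post_nonneg hS _ _ _ _)
    refine (sum_le_sum h2).trans ?_
    have h3 := one_step hS hx hD hv h0 h1 (k * η) w y
    rw [← hA, ← hy'] at h3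
    have e2 : ∑ ω ∈ S, post S x (k * η) w ω * (M * (ε +
        A ^ j * (sqd (w + η • x ω) y' + j * η ^ 2 * Fintype.card ι) / ε)) =
        M * (ε * ∑ ω ∈ S, post S x (k * η) w ω + A ^ j *
          (∑ ω ∈ S, post S x (k * η) w ω * sqd (w + η • x ω) y' +
            j * η ^ 2 * Fintype.card ι * ∑ ω ∈ S, post S x (k * η) w ω) / ε) := by
      simp only [mul_sum, sum_div, ← sum_add_distrib, mul_add, add_div]
      refine sum_congr rfl fun ω _ => ?_
      ring
    rw [e2, sum_post hS, mul_one, mul_one]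
    have hd := sqd_nonneg w y
    have h4 : A * sqd w y + η ^ 2 * Fintype.card ι + j * η ^ 2 * Fintype.card ι ≤
        A * (sqd w y + ((j + 1 : ℕ) : ℝ) * η ^ 2 * Fintype.card ι) := by
      push_cast
      have : 0 ≤ ((j : ℝ) + 1) * η ^ 2 * Fintype.card ι := by positivity
      nlinarith
    rw [pow_succ A j, mul_assoc (A ^ j)]
    gcongr
    linarith

lemma continuous_of_lip {g : (ι → ℝ) → ℝ} {M : ℝ}
    (hg : ∀ y y' δ, (∀ i, |y i - y' i| ≤ δ) → |g y - g y'| ≤ M * δ) (hM : 0 ≤ M) :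
    Continuous g := by
  have : LipschitzWith ⟨M, hM⟩ g := LipschitzWith.of_dist_le_mul fun y y' => by
    rw [Real.dist_eq]
    exact hg y y' _ fun i => by rw [← Real.dist_eq]; exact dist_le_pi_dist y y' i
  exact this.continuous

lemma continuous_euler {D : ℝ → (ι → ℝ) → ι → ℝ} (hD : Good D) (η : ℝ) (k : ℕ) :
    Continuous fun z => euler D η z k := by
  induction k with
  | zero => exact continuous_id
  | succ k ih =>
    refine continuous_pi fun i => ?_
    simp only [euler]
    refine ((continuous_apply i).comp ih).add (Continuous.const_mul ?_ η)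
    refine (continuous_of_lip (g := fun y => D (k * η) y i) (M := 8) ?_ (by norm_num)).comp ih
    intro y y' δ h
    simpa using hD.lip (k * η) (k * η) y y' δ h i

/-- The law of the coarse Euler scheme is close to the law of `Z + t X`, with an error that does
not depend on the volume. -/
theorem finite_law {S : Finset α} (hS : S.Nonempty) {x : α → ι → ℝ}
    (hx : ∀ ω i, 0 ≤ x ω i ∧ x ω i ≤ 1) {D : ℝ → (ι → ℝ) → ι → ℝ} (hD : Good D)
    (hv : ∀ s y i, D s y i = ∑ ω ∈ S, post S x s y ω * x ω i)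
    {g : (ι → ℝ) → ℝ} {M : ℝ} (hM : 0 ≤ M) (hb : ∀ y, |g y| ≤ 1)
    (hg : ∀ y y' δ, (∀ i, |y i - y' i| ≤ δ) → |g y - g y'| ≤ M * δ)
    {η : ℝ} (h0 : 0 < η) (k : ℕ) :
    |∫ z, g (euler D η z k) ∂lapPi ι -
      (∑ ω ∈ S, ∫ z, g (z + ((k : ℝ) * η) • x ω) ∂lapPi ι) / S.card| ≤
      M * (2 * η * ((1 + 8 * η) ^ k - 1)) := by
  have hgc := continuous_of_lip hg hM
  have hcard : (0 : ℝ) < S.card := by exact_mod_cast hS.card_pos
  have hint : ∀ {f : (ι → ℝ) → ℝ}, Continuous f → (∀ y, |f y| ≤ 1) → Integrable f (lapPi ι) :=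
    fun hf hb => Integrable.of_bound hf.aestronglyMeasurable 1 (ae_of_all _ hb)
  set n : ℝ := (Fintype.card ι : ℝ) with hn
  have hn0 : 0 ≤ n := by positivity
  set B := Real.exp (k * η * (1 + 128 * n)) * (k * η ^ 2 * n) with hB
  have key : ∀ ε : ℝ, 0 < ε → ∀ m : ℕ, 0 < m → η ≤ m →
      |∫ z, g (euler D η z k) ∂lapPi ι -
        (∑ ω ∈ S, ∫ z, g (z + ((k : ℝ) * η) • x ω) ∂lapPi ι) / S.card| ≤
        M * (2 * η * ((1 + 8 * η) ^ k - 1)) + M * (ε + B / m / ε) := by
    intro ε hε m hm hηm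
    have hm' : (0 : ℝ) < m := by exact_mod_cast hm
    set η' := η / m with hη'
    have h0' : 0 ≤ η' := by positivity
    have h1' : η' ≤ 1 := by rw [hη', div_le_one hm']; exact hηm
    have hmη : (m : ℝ) * η' = η := by rw [hη']; field_simp
    have e1 := chain_exact hS x η' hgc hb (k * m) 0
    simp only [Nat.cast_zero, zero_mul, zero_smul, add_zero, zero_add, sum_const,
      nsmul_eq_mul] at e1
    have e2 : ((k * m : ℕ) : ℝ) * η' = k * η := by push_cast; rw [mul_assoc, hmη]
    rw [e2] at e1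
    rw [← e1, mul_div_cancel_left₀ _ hcard.ne', ← integral_sub
      (hint (f := fun z => g (euler D η z k)) (hgc.comp (continuous_euler hD η k)) fun _ => hb _)
      (hint (continuous_chain hS x η' hgc _ _) (abs_chain_le hS x η' hb _ _))]
    refine (abs_integral_le_integral_abs).trans ?_
    have e3 : ∀ z, |g (euler D η z k) - chain S x η' g (k * m) 0 z| ≤
        M * (2 * η * ((1 + 8 * η) ^ k - 1)) + M * (ε + B / m / ε) := by
      intro z
      have h2 := chain_close hS hx hD hv h0' h1' hM hg hε (k * m) 0 z z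
      have h3 : back D η' (k * m) 0 z = euler D η' z (k * m) := by
        have := back_euler D η' z (k * m) 0
        rwa [zero_add] at this
      have h4 := hg _ _ _ (euler_refine hD h0' z m k)
      rw [hmη] at h4
      rw [h3] at h2
      have h5 : sqd z z = 0 := by simp [sqd]
      rw [h5, zero_add, ← hn] at h2
      have h6 : (1 + η' * (1 + 128 * n)) ^ (k * m) * (((k * m : ℕ) : ℝ) * η' ^ 2 * n) ≤ B / m := by
        have h7 : (1 + η' * (1 + 128 * n)) ^ (k * m) ≤ Real.exp (k * η * (1 + 128 * n)) := by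
          calc (1 + η' * (1 + 128 * n)) ^ (k * m) ≤ (Real.exp (η' * (1 + 128 * n))) ^ (k * m) := by
                gcongr
                linarith [Real.add_one_le_exp (η' * (1 + 128 * n))]
            _ = _ := by rw [← Real.exp_nat_mul, ← mul_assoc, e2]
        have h8 : ((k * m : ℕ) : ℝ) * η' ^ 2 * n = k * η ^ 2 * n / m := by
          rw [hη']; push_cast; field_simp
        rw [h8, hB, mul_div_assoc (Real.exp _)]
        gcongr
      have h9 : M * (ε + (1 + η' * (1 + 128 * n)) ^ (k * m) *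
          (((k * m : ℕ) : ℝ) * η' ^ 2 * n) / ε) ≤ M * (ε + B / m / ε) := by gcongr
      rw [abs_le] at h2 h4 ⊢
      constructor <;> linarith [h2.1, h2.2, h4.1, h4.2]
    calc ∫ z, |g (euler D η z k) - chain S x η' g (k * m) 0 z| ∂lapPi ι
        ≤ ∫ _, M * (2 * η * ((1 + 8 * η) ^ k - 1)) + M * (ε + B / m / ε) ∂lapPi ι := by
          refine integral_mono_of_nonneg (ae_of_all _ fun z => abs_nonneg _)
            (integrable_const _) (ae_of_all _ e3)
      _ = _ := by simp
  refine le_of_forall_pos_le_add fun δ hδ => ?_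
  have hε : 0 < δ / (2 * (M + 1)) := by positivity
  set ε := δ / (2 * (M + 1)) with hεdef
  have hlim : Tendsto (fun m : ℕ => B / m / ε) atTop (𝓝 (0 / ε)) :=
    (tendsto_const_div_atTop_nhds_zero_nat B).div_const ε
  rw [zero_div] at hlim
  obtain ⟨m, hm1, hm2, hm3⟩ := ((hlim.eventually (gt_mem_nhds hε)).and
    ((eventually_gt_atTop 0).and (tendsto_natCast_atTop_atTop.eventually_ge_atTop η))).exists
  refine (key ε hε m hm2 hm3).trans ?_
  have : M * (ε + B / m / ε) ≤ (M + 1) * (ε + ε) := by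
    have : 0 ≤ B / m / ε := by positivity
    gcongr
    linarith
  have h2 : (M + 1) * (ε + ε) = δ := by rw [hεdef]; field_simp; ring
  linarith

end Vale.Agent.P143
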