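import Vale.Agent.P143.Conductance

/-!
The Euler scheme of the posterior-mean flow, and its uniform estimates.
-/

open Finset SimpleGraph Filter Topology

namespace Vale.Agent.P143

open scoped Classical

section Abstract

variable {ι : Type}

/-- Euler scheme with step `η` for a time dependent vector field. -/
def euler (D : ℝ → (ι → ℝ) → ι → ℝ) (η : ℝ) (z : ι → ℝ) : ℕ → ι → ℝ
  | 0 => z
  | k + 1 => fun i => euler D η z k i + η * D (k * η) (euler D η z k) i

/-- Bounded and uniformly Lipschitz vector fields. -/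
structure Good (D : ℝ → (ι → ℝ) → ι → ℝ) : Prop where
  nonneg : ∀ s y i, 0 ≤ D s y i
  le_one : ∀ s y i, D s y i ≤ 1
  lip : ∀ s s' y y' δ, (∀ i, |y i - y' i| ≤ δ) → ∀ i, |D s y i - D s' y' i| ≤ 8 * (|s - s'| + δ)

variable {D : ℝ → (ι → ℝ) → ι → ℝ}

lemma euler_add_bound (hD : Good D) {η : ℝ} (hη : 0 ≤ η) (z : ι → ℝ) (k j : ℕ) (i : ι) :
    |euler D η z (k + j) i - euler D η z k i| ≤ j * η := by
  induction j with
  | zero => simp
  | succ j ih =>
    have h1 := hD.nonneg (((k + j : ℕ) : ℝ) * η) (euler D η z (k + j)) i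
    have h2 := hD.le_one (((k + j : ℕ) : ℝ) * η) (euler D η z (k + j)) i
    rw [← add_assoc, euler]
    rw [abs_le] at ih ⊢
    have h3 := mul_nonneg hη h1
    have h4 := mul_le_mul_of_nonneg_left h2 hη
    push_cast at h3 h4 ⊢
    constructor <;> linarith [ih.1, ih.2]

lemma euler_block (hD : Good D) {η : ℝ} (hη : 0 ≤ η) (z : ι → ℝ) (k M j : ℕ) (hj : j ≤ M)
    (i : ι) : |euler D η z (k + j) i - euler D η z k i - j * η * D (k * η) (euler D η z k) i| ≤
      16 * j * M * η ^ 2 := by
  induction j with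
  | zero => simp
  | succ j ih =>
    have ih := ih (by omega)
    have h1 := hD.lip (((k + j : ℕ) : ℝ) * η) (k * η) (euler D η z (k + j)) (euler D η z k)
      (j * η) (euler_add_bound hD hη z k j) i
    have h2 : |((k + j : ℕ) : ℝ) * η - k * η| = j * η := by
      push_cast
      rw [show ((k : ℝ) + j) * η - k * η = j * η by ring, abs_of_nonneg (by positivity)]
    rw [h2] at h1
    have hjM : (j : ℝ) ≤ M := by exact_mod_cast (by omega : j ≤ M)
    rw [← add_assoc, euler]
    have h3 : |η * (D (((k + j : ℕ) : ℝ) * η) (euler D η z (k + j)) i -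
        D (k * η) (euler D η z k) i)| ≤ 16 * M * η ^ 2 := by
      rw [abs_mul, abs_of_nonneg hη]
      calc η * |D (((k + j : ℕ) : ℝ) * η) (euler D η z (k + j)) i - D (k * η) (euler D η z k) i|
          ≤ η * (8 * (j * η + j * η)) := mul_le_mul_of_nonneg_left h1 hη
        _ = 16 * j * η ^ 2 := by ring
        _ ≤ 16 * M * η ^ 2 := by gcongr
    rw [abs_le] at ih h3 ⊢
    push_cast at ih h3 ⊢
    constructor <;> nlinarith [ih.1, ih.2, h3.1, h3.2]

lemma euler_refine (hD : Good D) {η : ℝ} (hη : 0 ≤ η) (z : ι → ℝ) (M k : ℕ) (i : ι) :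
    |euler D η z (k * M) i - euler D (M * η) z k i| ≤
      2 * (M * η) * ((1 + 8 * (M * η)) ^ k - 1) := by
  induction k generalizing i with
  | zero => simp [euler]
  | succ k ih =>
    have h1 := euler_block hD hη z (k * M) M M le_rfl i
    have h2 := hD.lip (((k * M : ℕ) : ℝ) * η) (k * (M * η)) (euler D η z (k * M))
      (euler D (M * η) z k) _ ih i
    have h3 : ((k * M : ℕ) : ℝ) * η - k * (M * η) = 0 := by push_cast; ring
    rw [h3, abs_zero, zero_add] at h2
    have hMη : 0 ≤ (M : ℝ) * η := by positivity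
    have h4 : |(M * η) * (D (((k * M : ℕ) : ℝ) * η) (euler D η z (k * M)) i -
        D (k * (M * η)) (euler D (M * η) z k) i)| ≤
        (M * η) * (8 * (2 * (M * η) * ((1 + 8 * (M * η)) ^ k - 1))) := by
      rw [abs_mul, abs_of_nonneg hMη]
      exact mul_le_mul_of_nonneg_left h2 hMη
    have h5 := ih i
    rw [Nat.succ_mul, euler]
    rw [abs_le] at h1 h4 h5 ⊢
    rw [pow_succ]
    constructor <;> nlinarith [h1.1, h1.2, h4.1, h4.2, h5.1, h5.2]

lemma euler_comp {κ : Type} {D' : ℝ → (κ → ℝ) → κ → ℝ} (f : κ → ι)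
    (h : ∀ s y j, D s y (f j) = D' s (y ∘ f) j) (η : ℝ) (z : ι → ℝ) (k : ℕ) :
    euler D η z k ∘ f = euler D' η (z ∘ f) k := by
  induction k with
  | zero => rfl
  | succ k ih =>
    funext j
    simp only [Function.comp_apply, euler]
    rw [h, ih, ← ih]
    rfl

end Abstract

variable {V W : Type}

/-- Log-likelihood ratio of the Laplace density. -/
def llr (s a : ℝ) : ℝ := |a| - |a - s|

lemma llr_lip (s s' a a' : ℝ) : |llr s a - llr s' a'| ≤ 2 * |a - a'| + |s - s'| := by
  unfold llr
  have h1 := abs_abs_sub_abs_le_abs_sub a a'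
  have h2 := abs_abs_sub_abs_le_abs_sub (a - s) (a' - s')
  have h3 : |a - s - (a' - s')| ≤ |a - a'| + |s - s'| := by
    rw [show a - s - (a' - s') = (a - a') - (s - s') by ring]
    exact abs_sub _ _
  rw [abs_le] at h1 h2 ⊢
  constructor <;> linarith [h1.1, h1.2, h2.1, h2.2]

lemma llr_abs_le (s a : ℝ) : |llr s a| ≤ |s| := by
  have := abs_abs_sub_abs_le_abs_sub a (a - s)
  simpa [llr] using this

lemma continuous_llr (s : ℝ) : Continuous (llr s) := by
  unfold llr; fun_prop

/-- Dart weights. -/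
noncomputable def qw (s : ℝ) (y : V × V → ℝ) (p : V × V) : ℝ := Real.exp (llr s (y p))

/-- Posterior conductances. -/
noncomputable def cnd (K : SimpleGraph V) (s : ℝ) (y : V × V → ℝ) (p : V × V) : ℝ :=
  if K.Adj p.1 p.2 then qw s y p * qw s y p.swap else 0

/-- The drift: posterior probability of the edge. -/
noncomputable def drift (K : SimpleGraph V) (s : ℝ) (y : V × V → ℝ) (p : V × V) : ℝ :=
  prob (cnd K s y) p.1 p.2

lemma qw_pos (s : ℝ) (y : V × V → ℝ) (p : V × V) : 0 < qw s y p := Real.exp_pos _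

lemma cnd_nonneg (K : SimpleGraph V) (s : ℝ) (y : V × V → ℝ) (p : V × V) : 0 ≤ cnd K s y p := by
  unfold cnd
  split_ifs
  · exact (mul_pos (qw_pos _ _ _) (qw_pos _ _ _)).le
  · exact le_rfl

/-- Local finiteness. -/
def LocFin (K : SimpleGraph V) : Prop := ∀ v, (K.neighborSet v).Finite

lemma finAt_cnd {K : SimpleGraph V} (hK : LocFin K) (s : ℝ) (y : V × V → ℝ) (a : V) :
    FinAt (cnd K s y) a := by
  refine (hK a).subset fun v hv => ?_
  by_contra h
  have h1 : ¬ K.Adj a v := h
  have h2 : ¬ K.Adj v a := fun hh => h1 hh.symm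
  simp [cnd, h1, h2] at hv

lemma drift_of_not_adj {K : SimpleGraph V} (s : ℝ) (y : V × V → ℝ) {p : V × V}
    (h : ¬ K.Adj p.1 p.2) : drift K s y p = 0 := by
  have h2 : ¬ K.Adj p.2 p.1 := fun hh => h hh.symm
  simp [drift, prob, cnd, h, h2]

lemma cnd_le (K : SimpleGraph V) (s s' : ℝ) {y y' : V × V → ℝ} {δ : ℝ}
    (h : ∀ p, |y p - y' p| ≤ δ) (p : V × V) :
    cnd K s y p ≤ Real.exp (4 * δ + 2 * |s - s'|) * cnd K s' y' p := by
  unfold cnd
  split_ifs
  · unfold qw
    rw [← Real.exp_add, ← Real.exp_add, ← Real.exp_add]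
    apply Real.exp_le_exp.2
    have h1 := (abs_le.1 (llr_lip s s' (y p) (y' p))).2
    have h2 := (abs_le.1 (llr_lip s s' (y p.swap) (y' p.swap))).2
    linarith [h p, h p.swap]
  · simp

lemma good_drift {K : SimpleGraph V} (hK : LocFin K) : Good (drift K) where
  nonneg s y p := prob_nonneg (cnd_nonneg K s y) _ _
  le_one s y p := by
    by_cases h : K.Adj p.1 p.2
    · exact prob_le_one (cnd_nonneg K s y) h.ne (finAt_cnd hK s y _)
    · rw [drift_of_not_adj s y h]; exact zero_le_one
  lip s s' y y' δ hδ p := by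
    have hδ0 : 0 ≤ δ := (abs_nonneg _).trans (hδ p)
    by_cases h : K.Adj p.1 p.2
    · have := abs_prob_sub_le (cnd_nonneg K s y) (cnd_nonneg K s' y') h.ne (finAt_cnd hK s y _)
        (finAt_cnd hK s' y' _) (θ := 4 * δ + 2 * |s - s'|) (by positivity) (cnd_le K s s' hδ)
        (by
          intro q
          rw [abs_sub_comm s s']
          exact cnd_le K s' s (fun p => by rw [abs_sub_comm]; exact hδ p) q)
      have h2 := abs_nonneg (s - s')
      unfold drift
      linarith
    · rw [drift_of_not_adj s y h, drift_of_not_adj s' y' h]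
      simp only [sub_self, abs_zero]
      positivity

lemma tendsto_drift {G : SimpleGraph V} (hG : LocFin G) {K : ℕ → SimpleGraph V}
    (hle : ∀ n, K n ≤ G) (hev : ∀ u v, G.Adj u v → ∀ᶠ n in atTop, (K n).Adj u v) (s : ℝ)
    {y : V × V → ℝ} {yn : ℕ → V × V → ℝ} (hy : ∀ p, Tendsto (fun n => yn n p) atTop (𝓝 (y p)))
    (p : V × V) : Tendsto (fun n => drift (K n) s (yn n) p) atTop (𝓝 (drift G s y p)) := by
  by_cases h : G.Adj p.1 p.2
  · refine tendsto_prob (cnd_nonneg G s y) (fun n => cnd_nonneg (K n) s (yn n)) h.ne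
      (finAt_cnd hG s y _) (μ := Real.exp (4 * |s|)) (Real.one_le_exp (by positivity)) ?_ ?_ ?_
    · intro n q
      unfold cnd
      by_cases h1 : (K n).Adj q.1 q.2
      · simp only [h1, hle n h1, if_true]
        unfold qw
        rw [← Real.exp_add, ← Real.exp_add, ← Real.exp_add]
        apply Real.exp_le_exp.2
        linarith [abs_le.1 (llr_abs_le s (yn n q)), abs_le.1 (llr_abs_le s (yn n q.swap)),
          abs_le.1 (llr_abs_le s (y q)), abs_le.1 (llr_abs_le s (y q.swap))]
      · simp only [h1, if_false]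
        exact mul_nonneg (Real.exp_pos _).le (cnd_nonneg G s y q)
    · intro q
      by_cases h1 : G.Adj q.1 q.2
      · have h2 : Tendsto (fun n => qw s (yn n) q * qw s (yn n) q.swap) atTop
            (𝓝 (qw s y q * qw s y q.swap)) := by
          unfold qw
          exact ((Real.continuous_exp.comp (continuous_llr s)).tendsto _ |>.comp (hy q)).mul
            ((Real.continuous_exp.comp (continuous_llr s)).tendsto _ |>.comp (hy q.swap))
        simp only [cnd, h1, if_true]
        refine h2.congr' ?_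
        filter_upwards [hev _ _ h1] with n hn
        simp [hn]
      · have h2 : ∀ n, ¬ (K n).Adj q.1 q.2 := fun n hn => h1 (hle n hn)
        simp [cnd, h1, h2]
    · simp only [cnd, h, if_true]
      exact mul_pos (qw_pos _ _ _) (qw_pos _ _ _)
  · have h2 : ∀ n, drift (K n) s (yn n) p = 0 := fun n =>
      drift_of_not_adj s _ fun hn => h (hle n hn)
    simp [h2, drift_of_not_adj s y h]

lemma tendsto_euler {G : SimpleGraph V} (hG : LocFin G) {K : ℕ → SimpleGraph V}
    (hle : ∀ n, K n ≤ G) (hev : ∀ u v, G.Adj u v → ∀ᶠ n in atTop, (K n).Adj u v) (η : ℝ)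
    (z : V × V → ℝ) (k : ℕ) (p : V × V) :
    Tendsto (fun n => euler (drift (K n)) η z k p) atTop (𝓝 (euler (drift G) η z k p)) := by
  induction k generalizing p with
  | zero => exact tendsto_const_nhds
  | succ k ih =>
    simp only [euler]
    exact (ih p).add ((tendsto_drift hG hle hev _ ih p).const_mul η)

lemma drift_comp (f : W → V) (hf : Function.Injective f) {K : SimpleGraph V} {K' : SimpleGraph W}
    (hadj : ∀ u v, K.Adj (f u) (f v) ↔ K'.Adj u v)
    (hs : ∀ u v, K.Adj u v → u ∈ Set.range f) (s : ℝ) (y : V × V → ℝ) (p : W × W) :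
    drift K s y (Prod.map f f p) = drift K' s (y ∘ Prod.map f f) p := by
  unfold drift
  simp only [Prod.map_fst, Prod.map_snd]
  rw [prob_comp f hf]
  · congr 1
    funext q
    simp only [cnd, Function.comp_apply, Prod.map_fst, Prod.map_snd, hadj, qw]
    rfl
  · intro q hq
    have h : K.Adj q.1 q.2 := by
      by_contra h
      simp [cnd, h] at hq
    obtain ⟨u, hu⟩ := hs _ _ h
    obtain ⟨v, hv⟩ := hs _ _ h.symm
    exact ⟨(u, v), by simp [hu, hv]⟩

lemma euler_drift_comp (f : W → V) (hf : Function.Injective f) {K : SimpleGraph V}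
    {K' : SimpleGraph W} (hadj : ∀ u v, K.Adj (f u) (f v) ↔ K'.Adj u v)
    (hs : ∀ u v, K.Adj u v → u ∈ Set.range f) (η : ℝ) (z : V × V → ℝ) (k : ℕ) :
    euler (drift K) η z k ∘ Prod.map f f = euler (drift K') η (z ∘ Prod.map f f) k :=
  euler_comp _ (drift_comp f hf hadj hs) η z k

lemma measurable_drift [Countable V] {Ω : Type} [MeasurableSpace Ω] {K : Ω → SimpleGraph V}
    (hK : Measurable K) {y : Ω → V × V → ℝ} (hy : Measurable y) (s : ℝ) (p : V × V) :
    Measurable fun ω => drift (K ω) s (y ω) p := by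
  refine measurable_prob (c := fun ω => cnd (K ω) s (y ω)) ?_ (fun ω => cnd_nonneg _ _ _) _ _
  refine measurable_pi_lambda _ fun q => ?_
  unfold cnd qw
  refine Measurable.ite ?_ ?_ measurable_const
  · exact (measurable_iff_adj.1 hK q.1 q.2).setOf
  · exact ((Real.continuous_exp.comp (continuous_llr s)).measurable.comp
      ((measurable_pi_apply _).comp hy)).mul
      ((Real.continuous_exp.comp (continuous_llr s)).measurable.comp
      ((measurable_pi_apply _).comp hy))

lemma measurable_euler [Countable V] {Ω : Type} [MeasurableSpace Ω] {K : Ω → SimpleGraph V}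
    (hK : Measurable K) {z : Ω → V × V → ℝ} (hz : Measurable z) (η : ℝ) (k : ℕ) :
    Measurable fun ω => euler (drift (K ω)) η (z ω) k := by
  induction k with
  | zero => exact hz
  | succ k ih =>
    refine measurable_pi_lambda _ fun p => ?_
    simp only [euler]
    exact ((measurable_pi_apply p).comp ih).add ((measurable_drift hK ih _ p).const_mul η)

end Vale.Agent.P143
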