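import Vale.Agent.P143.FiniteLaw
import Vale.Agent.P143.Defs

/-!
The finite volume estimate for subgraphs.
-/

open Finset SimpleGraph Filter Topology MeasureTheory ProbabilityTheory

namespace Vale.Agent.P143

open scoped Classical

variable {V : Type}

/-- The Euler scheme at time `t` with step `13122⁻ᵗ`. -/
noncomputable def Y (G : SimpleGraph V) (t : ℕ) (z : V × V → ℝ) : V × V → ℝ :=
  euler (drift G) (1 / (13122 ^ t : ℕ)) z (t * 13122 ^ t)

lemma err_le (t : ℕ) : 2 * (1 / ((13122 ^ t : ℕ) : ℝ)) *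
    ((1 + 8 * (1 / ((13122 ^ t : ℕ) : ℝ))) ^ (t * 13122 ^ t) - 1) ≤ 2 * (1 / 2) ^ t := by
  set N : ℕ := 13122 ^ t with hN
  have hN0 : (0 : ℝ) < N := by rw [hN]; positivity
  have h1 : (1 + 8 * (1 / (N : ℝ))) ^ (t * N) ≤ 6561 ^ t := by
    calc (1 + 8 * (1 / (N : ℝ))) ^ (t * N) ≤ (Real.exp (8 * (1 / (N : ℝ)))) ^ (t * N) := by
          gcongr
          linarith [Real.add_one_le_exp (8 * (1 / (N : ℝ)))]
      _ = (Real.exp 1 ^ 8) ^ t := by
          rw [← Real.exp_nat_mul, ← pow_mul, ← Real.exp_nat_mul]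
          congr 1
          push_cast
          field_simp
      _ ≤ (3 ^ 8) ^ t := by
          gcongr
          linarith [Real.exp_one_lt_d9]
      _ = 6561 ^ t := by norm_num
  have h2 : (1 / (N : ℝ)) * 6561 ^ t = (1 / 2) ^ t := by
    rw [hN]
    push_cast
    rw [one_div, ← inv_pow, ← mul_pow]
    norm_num
  rw [← h2]
  have h3 : 0 ≤ 1 / (N : ℝ) := by positivity
  nlinarith

lemma Y_succ {G : SimpleGraph V} (hG : LocFin G) (t : ℕ) (z : V × V → ℝ) (p : V × V) :
    |Y G (t + 1) z p - Y G t z p| ≤ 3 := by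
  have hD := good_drift hG
  have h0 : (0 : ℝ) ≤ 1 / ((13122 ^ (t + 1) : ℕ) : ℝ) := by positivity
  have h1 := euler_add_bound hD h0 z (t * 13122 ^ (t + 1)) (13122 ^ (t + 1)) p
  have h2 := euler_refine hD h0 z 13122 (t * 13122 ^ t) p
  have e1 : ((13122 : ℕ) : ℝ) * (1 / ((13122 ^ (t + 1) : ℕ) : ℝ)) = 1 / ((13122 ^ t : ℕ) : ℝ) := by
    push_cast
    field_simp
    ring
  have e2 : ((13122 ^ (t + 1) : ℕ) : ℝ) * (1 / ((13122 ^ (t + 1) : ℕ) : ℝ)) = 1 := by
    field_simp
  rw [e1, show t * 13122 ^ t * 13122 = t * 13122 ^ (t + 1) by ring] at h2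
  rw [e2, show t * 13122 ^ (t + 1) + 13122 ^ (t + 1) = (t + 1) * 13122 ^ (t + 1) by ring] at h1
  have h3 := err_le t
  have h4 : (1 / 2 : ℝ) ^ t ≤ 1 := pow_le_one₀ (by norm_num) (by norm_num)
  unfold Y
  rw [abs_le] at h1 h2 ⊢
  constructor <;> linarith [h1.1, h1.2, h2.1, h2.2]

/-- The noise is i.i.d. Laplace on the darts of `G`. -/
def IsNoise {Ω : Type} [MeasurableSpace Ω] (P : Measure Ω) (G : SimpleGraph V)
    (Z : Ω → V × V → ℝ) : Prop :=
  Measurable Z ∧ ∀ (ι : Type) [Fintype ι] (d : ι → V × V), Function.Injective d →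
    (∀ i, G.Adj (d i).1 (d i).2) → P.map (fun ω i => Z ω (d i)) = lapPi ι

lemma noise_tail {Ω : Type} [MeasurableSpace Ω] {P : Measure Ω} {G : SimpleGraph V}
    {Z : Ω → V × V → ℝ} (hZ : IsNoise P G Z) {p : V × V} (hp : G.Adj p.1 p.2) (r : ℝ) :
    P.real {ω | r ≤ |Z ω p|} ≤ 2 * Real.exp (-r / 2) := by
  have h1 := hZ.2 Unit (fun _ => p) (Function.injective_of_subsingleton _) fun _ => hp
  have hm : Measurable fun ω (_ : Unit) => Z ω p :=
    measurable_pi_lambda _ fun _ => (measurable_pi_apply p).comp hZ.1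
  have h2 : P.map (fun ω => Z ω p) = lap := by
    have := (measurePreserving_eval (fun _ : Unit => lap) ()).map_eq
    rw [← this]
    change _ = (lapPi Unit).map _
    rw [← h1, Measure.map_map (measurable_pi_apply _) hm]
    rfl
  have h3 := lap_tail r
  rw [← h2, map_measureReal_apply (f := fun ω => Z ω p) ((measurable_pi_apply p).comp hZ.1)
    (measurableSet_le measurable_const (by fun_prop))] at h3
  exact h3

/-- Indicator of adjacency. -/
noncomputable def indAdj (T : SimpleGraph V) (p : V × V) : ℝ := if T.Adj p.1 p.2 then 1 else 0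

lemma posterior_formula {W : Type} [Fintype W] {K : SimpleGraph W} (hK : K.Connected) (s : ℝ)
    (y : {p : W × W // K.Adj p.1 p.2} → ℝ) (y' : W × W → ℝ) (hy : ∀ i, y' i.1 = y i)
    (i : {p : W × W // K.Adj p.1 p.2}) :
    drift K s y' i.1 = ∑ T ∈ trees K, post (trees K) (fun T j => indAdj T j.1) s y T *
      indAdj T i.1 := by
  have e : ∀ T ∈ trees K, lik (s • fun j : {p : W × W // K.Adj p.1 p.2} => indAdj T j.1) y =
      wt (qw s y') T := by
    intro T hT
    simp only [trees, mem_filter, mem_univ, true_and] at hT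
    unfold lik wt
    rw [← prod_filter_of_ne (s := univ) (p := fun p : W × W => K.Adj p.1 p.2)
      (f := fun p => if T.Adj p.1 p.2 then qw s y' p else 1)]
    · rw [prod_subtype (p := fun p : W × W => K.Adj p.1 p.2) _ (by simp)]
      refine prod_congr rfl fun j _ => ?_
      simp only [Pi.smul_apply, smul_eq_mul, indAdj, qw, hy]
      split_ifs <;> simp [llr]
    · intro p _ hp
      by_contra h
      have : ¬ T.Adj p.1 p.2 := fun h' => h (hT.1 h')
      simp [this] at hp
  unfold drift cnd
  rw [prob_eq_tree (qw_pos s y') hK i.2, sum_div]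
  refine sum_congr rfl fun T hT => ?_
  unfold post Ztree
  rw [e T hT, sum_congr rfl e]
  unfold indAdj
  split_ifs <;> simp

lemma key_finite [Countable V] {Ω : Type} [MeasurableSpace Ω] {P : Measure Ω}
    [IsProbabilityMeasure P]
    {G : SimpleGraph V} {Z : Ω → V × V → ℝ} (hZ : IsNoise P G Z) (H : G.Subgraph)
    [Fintype H.verts] (hH : H.Connected) {κ : Type} [Fintype κ] (d : κ → V × V)
    (hd : ∀ j, H.Adj (d j).1 (d j).2) {g : (κ → ℝ) → ℝ} {M : ℝ} (hM : 0 ≤ M)
    (hg0 : ∀ y, 0 ≤ g y) (hg1 : ∀ y, g y ≤ 1)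
    (hg : ∀ y y' δ, (∀ i, |y i - y' i| ≤ δ) → |g y - g y'| ≤ M * δ) (t : ℕ) (r : ℝ)
    {F : SimpleGraph V → ℝ} (hF0 : ∀ T, 0 ≤ F T) (hF1 : ∀ T, F T ≤ 1)
    (hF : ∀ (T : SimpleGraph V) (z : κ → ℝ), (∀ j, |z j| < r) →
      g (fun j => z j + t * indAdj T (d j)) = F T) :
    |∫ ω, g (fun j => Y H.spanningCoe t (Z ω) (d j)) ∂P -
      (∑ T ∈ trees H.coe, F (T.map Subtype.val)) / (trees H.coe).card| ≤
      M * (2 * (1 / 2) ^ t) + Fintype.card κ * (2 * Real.exp (-r / 2)) := by
  let ι := {p : H.verts × H.verts // H.coe.Adj p.1 p.2}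
  let e : ι → V × V := fun i => Prod.map Subtype.val Subtype.val i.1
  have he : Function.Injective e :=
    (Subtype.val_injective.prodMap Subtype.val_injective).comp Subtype.val_injective
  have heG : ∀ i, G.Adj (e i).1 (e i).2 := fun i => H.adj_sub i.2
  let d' : κ → ι := fun j => ⟨(⟨(d j).1, H.edge_vert (hd j)⟩, ⟨(d j).2, H.edge_vert (hd j).symm⟩),
    hd j⟩
  have hd' : ∀ j, e (d' j) = d j := fun j => rfl
  let ext : (ι → ℝ) → H.verts × H.verts → ℝ := fun y p =>
    if h : H.coe.Adj p.1 p.2 then y ⟨p, h⟩ else 0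
  have hext : ∀ y (i : ι), ext y i.1 = y i := fun y i => dif_pos i.2
  let D : ℝ → (ι → ℝ) → ι → ℝ := fun s y i => drift H.coe s (ext y) i.1
  have hfin : LocFin H.coe := fun v => Set.toFinite _
  have hD0 := good_drift hfin
  have hD : Good D := by
    refine ⟨fun s y i => hD0.nonneg _ _ _, fun s y i => hD0.le_one _ _ _, ?_⟩
    intro s s' y y' δ h i
    refine hD0.lip s s' _ _ δ (fun p => ?_) _
    simp only [ext]
    split_ifs with hp
    · exact h _
    · simpa using (abs_nonneg _).trans (h i)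
  let x : SimpleGraph H.verts → ι → ℝ := fun T j => indAdj T j.1
  have hx : ∀ T i, 0 ≤ x T i ∧ x T i ≤ 1 := by
    intro T i
    simp only [x, indAdj]
    split_ifs <;> simp
  have hv : ∀ s y i, D s y i = ∑ T ∈ trees H.coe, post (trees H.coe) x s y T * x T i :=
    fun s y i => posterior_formula hH.coe s y (ext y) (hext y) i
  have hS := trees_nonempty hH.coe
  let g' : (ι → ℝ) → ℝ := fun y => g fun j => y (d' j)
  have hb : ∀ y, |g' y| ≤ 1 := fun y => abs_le.2 ⟨by linarith [hg0 fun j => y (d' j)], hg1 _⟩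
  have hg' : ∀ y y' δ, (∀ i, |y i - y' i| ≤ δ) → |g' y - g' y'| ≤ M * δ :=
    fun y y' δ h => hg _ _ δ fun j => h _
  have hg'c := continuous_of_lip hg' hM
  have hη : (0 : ℝ) < 1 / ((13122 ^ t : ℕ) : ℝ) := by positivity
  have main := finite_law hS hx hD hv hM hb hg' hη (t * 13122 ^ t)
  have e1 : ((t * 13122 ^ t : ℕ) : ℝ) * (1 / ((13122 ^ t : ℕ) : ℝ)) = t := by
    push_cast; field_simp
  rw [e1] at main
  have hlaw := hZ.2 ι e he heG
  have hmeas : Measurable fun ω i => Z ω (e i) :=
    measurable_pi_lambda _ fun i => (measurable_pi_apply _).comp hZ.1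
  -- identify the Euler schemes
  have hE : ∀ (z : V × V → ℝ) (η : ℝ) (k : ℕ) (i : ι),
      euler (drift H.spanningCoe) η z k (e i) = euler D η (fun i => z (e i)) k i := by
    intro z η k i
    have h1 := euler_drift_comp (K := H.spanningCoe) (K' := H.coe) Subtype.val
      Subtype.val_injective (fun u v => Iff.rfl)
      (fun u v h => ⟨⟨u, H.edge_vert h⟩, rfl⟩) η z k
    have h2 := euler_comp (D := drift H.coe) (D' := D) (Subtype.val : ι → _) (by
      intro s y j
      simp only [D, drift]
      congr 1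
      funext p
      simp only [cnd]
      split_ifs with hp
      · have hp' : H.coe.Adj p.swap.1 p.swap.2 := hp.symm
        simp only [qw, ext, dif_pos hp, dif_pos hp', Function.comp_apply]
      · rfl) η (z ∘ Prod.map Subtype.val Subtype.val) k
    exact (congrFun h1 i.1).trans (congrFun h2 i)
  have e2 : ∫ ω, g (fun j => Y H.spanningCoe t (Z ω) (d j)) ∂P =
      ∫ z, g' (euler D (1 / ((13122 ^ t : ℕ) : ℝ)) z (t * 13122 ^ t)) ∂lapPi ι := by
    have hc : Continuous fun z => g' (euler D (1 / ((13122 ^ t : ℕ) : ℝ)) z (t * 13122 ^ t)) :=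
      hg'c.comp (continuous_euler hD _ _)
    rw [← hlaw, integral_map hmeas.aemeasurable hc.aestronglyMeasurable]
    congr 1
    funext ω
    simp only [g', Y, ← hd', hE]
  have e3 : ∀ T ∈ trees H.coe, |∫ z, g' (z + (t : ℝ) • x T) ∂lapPi ι - F (T.map Subtype.val)| ≤
      Fintype.card κ * (2 * Real.exp (-r / 2)) := by
    intro T _
    have hc : Continuous fun z : ι → ℝ => g' (z + (t : ℝ) • x T) :=
      hg'c.comp (continuous_id.add continuous_const)
    rw [← hlaw, integral_map hmeas.aemeasurable hc.aestronglyMeasurable]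
    have hms : ∀ j, MeasurableSet {ω | r ≤ |Z ω (d j)|} := fun j =>
      measurableSet_le measurable_const
        (((measurable_pi_apply (d j)).comp hZ.1).abs)
    have hint : Integrable (fun ω => g' ((fun i => Z ω (e i)) + (t : ℝ) • x T)) P :=
      Integrable.of_bound (hc.measurable.comp hmeas).aestronglyMeasurable 1
        (ae_of_all _ fun ω => hb _)
    have e4 : F (T.map Subtype.val) = ∫ _, F (T.map Subtype.val) ∂P := by simp
    rw [e4, ← integral_sub hint (integrable_const _)]
    refine abs_integral_le_integral_abs.trans ?_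
    have e5 : ∀ ω, |g' ((fun i => Z ω (e i)) + (t : ℝ) • x T) - F (T.map Subtype.val)| ≤
        ∑ j, {ω | r ≤ |Z ω (d j)|}.indicator (1 : Ω → ℝ) ω := by
      intro ω
      have hnn : ∀ j, 0 ≤ {ω | r ≤ |Z ω (d j)|}.indicator (1 : Ω → ℝ) ω := fun j =>
        Set.indicator_nonneg (fun _ _ => zero_le_one) ω
      by_cases hω : ∀ j, |Z ω (d j)| < r
      · have h1 := hF (T.map Subtype.val) (fun j => Z ω (d j)) hω
        have h2 : g' ((fun i => Z ω (e i)) + (t : ℝ) • x T) = F (T.map Subtype.val) := by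
          rw [← h1]
          simp only [g', Pi.add_apply, Pi.smul_apply, smul_eq_mul, hd']
          congr 1
          funext j
          congr 2
          simp only [x, indAdj]
          congr 1
          exact propext (map_adj_apply (f := Function.Embedding.subtype _)).symm
        rw [h2, sub_self, abs_zero]
        exact sum_nonneg fun j _ => hnn j
      · push Not at hω
        obtain ⟨j, hj⟩ := hω
        refine le_trans ?_ (single_le_sum (fun j _ => hnn j) (mem_univ j))
        rw [Set.indicator_of_mem (by exact hj), abs_le]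
        have := hg0 fun j => ((fun i => Z ω (e i)) + (t : ℝ) • x T) (d' j)
        have := hg1 fun j => ((fun i => Z ω (e i)) + (t : ℝ) • x T) (d' j)
        have := hF0 (T.map Subtype.val)
        have := hF1 (T.map Subtype.val)
        simp only [g', Pi.one_apply]
        constructor <;> linarith
    have hint2 : ∀ j, Integrable ({ω | r ≤ |Z ω (d j)|}.indicator (1 : Ω → ℝ)) P := fun j =>
      (integrable_const (1 : ℝ)).indicator (hms j)
    refine (integral_mono_of_nonneg (ae_of_all _ fun ω => abs_nonneg _)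
      (integrable_finsetSum _ fun j _ => hint2 j) (ae_of_all _ e5)).trans ?_
    rw [integral_finsetSum _ fun j _ => hint2 j]
    simp only [integral_indicator_one (hms _)]
    refine (sum_le_sum fun j _ => noise_tail hZ (H.adj_sub (hd j)) r).trans ?_
    simp
  have hcard : (0 : ℝ) < (trees H.coe).card := by exact_mod_cast hS.card_pos
  have e6 : |(∑ T ∈ trees H.coe, ∫ z, g' (z + (t : ℝ) • x T) ∂lapPi ι) / (trees H.coe).card -
      (∑ T ∈ trees H.coe, F (T.map Subtype.val)) / (trees H.coe).card| ≤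
      Fintype.card κ * (2 * Real.exp (-r / 2)) := by
    rw [← sub_div, ← sum_sub_distrib, abs_div, abs_of_pos hcard, div_le_iff₀ hcard]
    refine (abs_sum_le_sum_abs _ _).trans ((sum_le_sum e3).trans (le_of_eq ?_))
    simp [mul_comm]
  have e7 := mul_le_mul_of_nonneg_left (err_le t) hM
  rw [e2]
  rw [abs_le] at main e6 ⊢
  constructor <;> linarith [main.1, main.2, e6.1, e6.2]

/-- Indicator vector of the edge set of `T`. -/
noncomputable def indE (G T : SimpleGraph V) : G.edgeSet → Bool := fun e => decide (e.1 ∈ T.edgeSet)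

lemma ust_real [Countable V] {G : SimpleGraph V} (H : G.Subgraph) [Fintype H.verts]
    (C : Set (G.edgeSet → Bool)) :
    (ust H).real C = (∑ T ∈ trees H.coe,
      C.indicator (1 : (G.edgeSet → Bool) → ℝ) (indE G (T.map Subtype.val))) /
        (trees H.coe).card := by
  let ind : SimpleGraph H.verts → G.edgeSet → Bool := fun T => indE G (T.map Subtype.val)
  have hinj : Set.InjOn ind (trees H.coe) := by
    intro T hT T' hT' h
    simp only [trees, coe_filter, mem_univ, true_and, Set.mem_ofPred_eq] at hT hT'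
    ext u v
    by_cases huv : H.coe.Adj u v
    · have := congrFun h ⟨s(u.1, v.1), H.adj_sub huv⟩
      simp only [ind, indE, mem_edgeSet, decide_eq_decide] at this
      exact (map_adj_apply (f := Function.Embedding.subtype _)).symm.trans
        (this.trans (map_adj_apply (f := Function.Embedding.subtype _)))
    · exact ⟨fun h => absurd (hT.1 h) huv, fun h => absurd (hT'.1 h) huv⟩
  have h1 : spanningTrees H = ((trees H.coe).image ind : Finset _) := by
    ext ω
    simp only [spanningTrees, Set.mem_ofPred_eq, coe_image, Set.mem_image, mem_coe, trees,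
      mem_filter, mem_univ, true_and]
    constructor
    · rintro ⟨T, h1, h2, h3⟩
      refine ⟨T, ⟨h1, h2⟩, ?_⟩
      funext e
      simp only [ind, indE, ← h3 e]
      simp
    · rintro ⟨T, ⟨h1, h2⟩, rfl⟩
      exact ⟨T, h1, h2, fun e => by simp [ind, indE]⟩
  have h2 : (((trees H.coe).image ind : Finset _) : Set _) ∩ C =
      (((trees H.coe).filter fun T => ind T ∈ C).image ind : Finset _) := by
    ext ω
    simp only [coe_image, Set.mem_inter_iff, Set.mem_image, mem_coe, mem_filter]
    constructor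
    · rintro ⟨⟨T, hT, rfl⟩, h⟩
      exact ⟨T, ⟨hT, h⟩, rfl⟩
    · rintro ⟨T, ⟨hT, h⟩, rfl⟩
      exact ⟨⟨T, hT, rfl⟩, h⟩
  rw [measureReal_def, ust, h1, ← uniformOn_inter_self (finite_toSet _), h2,
    uniformOn_apply_finset, inter_eq_right.2 (image_subset_image (filter_subset _ _)),
    card_image_of_injOn hinj, card_image_of_injOn (hinj.mono (coe_subset.2 (filter_subset _ _))),
    ENNReal.toReal_div, ENNReal.toReal_natCast, ENNReal.toReal_natCast]
  simp only [card_filter, Nat.cast_sum, Nat.cast_ite, Nat.cast_one, Nat.cast_zero,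
    Set.indicator, Pi.one_apply]
  rfl

lemma ust_prob [Countable V] {G : SimpleGraph V} (H : G.Subgraph) (hf : H.verts.Finite)
    (hH : H.Connected) : IsProbabilityMeasure (ust H) := by
  have := hf.fintype
  have h := ust_real H Set.univ
  have hcard : (0 : ℝ) < (trees H.coe).card := by exact_mod_cast (trees_nonempty hH.coe).card_pos
  simp only [Set.indicator_univ, Pi.one_apply, sum_const, nsmul_eq_mul, mul_one,
    div_self hcard.ne'] at h
  exact isProbabilityMeasure_iff_real.2 h

end Vale.Agent.P143
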