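import Mathlib

/-!
Kirchhoff's formula for the weighted spanning tree measure of a finite connected graph.
-/

open Finset SimpleGraph

namespace Vale.Agent.P143

open scoped Classical

variable {V : Type}

/-- The graph with the edge `uv` removed. -/
def cut (T : SimpleGraph V) (u v : V) : SimpleGraph V := T.deleteEdges {s(u, v)}

lemma cut_adj (T : SimpleGraph V) (u v x y : V) :
    (cut T u v).Adj x y ↔ T.Adj x y ∧ s(x, y) ≠ s(u, v) := by
  simp [cut]

lemma cut_comm (T : SimpleGraph V) (u v : V) : cut T u v = cut T v u := by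
  simp [cut, Sym2.eq_swap]

lemma cut_le (T : SimpleGraph V) (u v : V) : cut T u v ≤ T := deleteEdges_le _

lemma reach_cut_or (T : SimpleGraph V) (u v x : V) (h : T.Reachable u x) :
    (cut T u v).Reachable u x ∨ (cut T u v).Reachable v x := by
  rw [reachable_iff_reflTransGen] at h
  induction h with
  | refl => exact Or.inl Reachable.rfl
  | @tail b c _ hbc ih =>
    by_cases he : s(b, c) = s(u, v)
    · rw [Sym2.eq_iff] at he
      rcases he with ⟨_, rfl⟩ | ⟨_, rfl⟩
      · exact Or.inr Reachable.rfl
      · exact Or.inl Reachable.rfl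
    · have hadj : (cut T u v).Adj b c := (cut_adj T u v b c).2 ⟨hbc, he⟩
      rcases ih with ih | ih
      · exact Or.inl (ih.trans hadj.reachable)
      · exact Or.inr (ih.trans hadj.reachable)

lemma not_reach_cut {T : SimpleGraph V} (hT : T.IsAcyclic) {u v : V} (h : T.Adj u v) :
    ¬ (cut T u v).Reachable u v :=
  isBridge_iff.1 (isAcyclic_iff_forall_adj_isBridge.1 hT h)

/-- Indicator of the side of `u` after cutting `uv`. -/
noncomputable def side (T : SimpleGraph V) (u v x : V) : ℝ :=
  if (cut T u v).Reachable u x then 1 else 0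

lemma side_adj {T : SimpleGraph V} (hT : T.IsAcyclic) {u v x y : V} (huv : T.Adj u v)
    (hxy : T.Adj x y) :
    side T u v x - side T u v y =
      (if (u, v) = (x, y) then 1 else 0) - (if (u, v) = (y, x) then 1 else 0) := by
  have hne := huv.ne
  have hnr := not_reach_cut hT huv
  by_cases he : s(x, y) = s(u, v)
  · rw [Sym2.eq_iff] at he
    rcases he with ⟨rfl, rfl⟩ | ⟨rfl, rfl⟩
    · simp [side, hnr, hne]
    · simp [side, hnr, hne, hne.symm]
  · have hadj : (cut T u v).Adj x y := (cut_adj T u v x y).2 ⟨hxy, he⟩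
    have h1 : (u, v) ≠ (x, y) := by
      intro h; apply he; simp only [Prod.mk.injEq] at h; rw [h.1, h.2]
    have h2 : (u, v) ≠ (y, x) := by
      intro h; apply he; simp only [Prod.mk.injEq] at h; rw [h.1, h.2, Sym2.eq_swap]
    have : (cut T u v).Reachable u x ↔ (cut T u v).Reachable u y :=
      ⟨fun h => h.trans hadj.reachable, fun h => h.trans hadj.reachable.symm⟩
    simp [side, h1, h2, this]

variable [Fintype V]

lemma path_identity {T : SimpleGraph V} (hT : T.IsAcyclic) (ψ : V → ℝ) {a b : V}
    (hab : T.Reachable a b) :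
    ∑ p : V × V, (if T.Adj p.1 p.2 then
      (side T p.1 p.2 a - side T p.1 p.2 b) * (ψ p.1 - ψ p.2) else 0) = 2 * (ψ a - ψ b) := by
  rw [reachable_iff_reflTransGen] at hab
  induction hab with
  | refl => simp
  | @tail x y _ hxy ih =>
    have key : ∑ p : V × V, (if T.Adj p.1 p.2 then
      (side T p.1 p.2 x - side T p.1 p.2 y) * (ψ p.1 - ψ p.2) else 0) = 2 * (ψ x - ψ y) := by
      have : ∀ p : V × V, (if T.Adj p.1 p.2 then
          (side T p.1 p.2 x - side T p.1 p.2 y) * (ψ p.1 - ψ p.2) else 0) =
          (if p = (x, y) then ψ x - ψ y else 0) - (if p = (y, x) then ψ y - ψ x else 0) := by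
        rintro ⟨u, v⟩
        by_cases huv : T.Adj u v
        · simp only [huv, if_true]
          rw [side_adj hT huv hxy]
          by_cases h1 : (u, v) = (x, y)
          · have h2 : (u, v) ≠ (y, x) := by
              intro h2; rw [h1] at h2; simp only [Prod.mk.injEq] at h2; exact hxy.ne h2.1
            simp only [h2, if_false]
            simp only [h1, if_true]
            simp only [Prod.mk.injEq] at h1
            rw [h1.1, h1.2]; ring
          · by_cases h2 : (u, v) = (y, x)
            · simp only [h1, if_false]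
              simp only [h2, if_true]
              simp only [Prod.mk.injEq] at h2
              rw [h2.1, h2.2]; ring
            · simp [h1, h2]
        · have h1 : (u, v) ≠ (x, y) := by
            intro h; simp only [Prod.mk.injEq] at h; rw [h.1, h.2] at huv; exact huv hxy
          have h2 : (u, v) ≠ (y, x) := by
            intro h; simp only [Prod.mk.injEq] at h; rw [h.1, h.2] at huv; exact huv hxy.symm
          simp [huv, h1, h2]
      simp only [this, sum_sub_distrib, sum_ite_eq', mem_univ, if_true]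
      ring
    have : ∀ p : V × V, (if T.Adj p.1 p.2 then
        (side T p.1 p.2 a - side T p.1 p.2 y) * (ψ p.1 - ψ p.2) else 0) =
        (if T.Adj p.1 p.2 then
        (side T p.1 p.2 a - side T p.1 p.2 x) * (ψ p.1 - ψ p.2) else 0) +
        (if T.Adj p.1 p.2 then
        (side T p.1 p.2 x - side T p.1 p.2 y) * (ψ p.1 - ψ p.2) else 0) := by
      intro p; split_ifs <;> ring
    simp only [this, sum_add_distrib, ih, key]
    ring

/-- The weight of a subgraph: product of the dart weights over its darts. -/
noncomputable def wt (q : V × V → ℝ) (T : SimpleGraph V) : ℝ :=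
  ∏ p : V × V, if T.Adj p.1 p.2 then q p else 1

lemma wt_pos {q : V × V → ℝ} (hq : ∀ p, 0 < q p) (T : SimpleGraph V) : 0 < wt q T := by
  unfold wt
  refine prod_pos fun p _ => ?_
  split_ifs
  · exact hq p
  · exact one_pos

lemma wt_sup_edge (q : V × V → ℝ) {F : SimpleGraph V} {u v : V} (hne : u ≠ v)
    (h : ¬ F.Adj u v) : wt q (F ⊔ edge u v) = wt q F * (q (u, v) * q (v, u)) := by
  unfold wt
  have : ∀ p : V × V, (if (F ⊔ edge u v).Adj p.1 p.2 then q p else 1) =
      (if F.Adj p.1 p.2 then q p else 1) *
        ((if p = (u, v) then q (u, v) else 1) * (if p = (v, u) then q (v, u) else 1)) := by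
    rintro ⟨x, y⟩
    simp only [sup_adj, edge_adj, Prod.mk.injEq]
    by_cases h1 : x = u ∧ y = v
    · obtain ⟨rfl, rfl⟩ := h1
      simp [h, hne]
    · by_cases h2 : x = v ∧ y = u
      · obtain ⟨rfl, rfl⟩ := h2
        have h' : ¬ F.Adj x y := fun hh => h hh.symm
        simp [h', hne, hne.symm]
      · simp [h1, h2]
  rw [prod_congr rfl (fun p _ => by convert this p)]
  simp only [prod_mul_distrib, prod_ite_eq', mem_univ, if_true]

/-- Spanning trees of `K`. -/
noncomputable def trees (K : SimpleGraph V) : Finset (SimpleGraph V) :=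
  univ.filter fun T => T ≤ K ∧ T.IsTree

/-- Spanning forests of `K` with two components separating `a` from `b`. -/
noncomputable def forests (K : SimpleGraph V) (a b : V) : Finset (SimpleGraph V) :=
  univ.filter fun F => F ≤ K ∧ F.IsAcyclic ∧ ¬ F.Reachable a b ∧
    ∀ x, F.Reachable a x ∨ F.Reachable b x

lemma forest_tree_bij (q : V × V → ℝ) {K : SimpleGraph V} (a b : V) {u v : V} (huv : K.Adj u v) :
    ∑ F ∈ (forests K a b).filter (fun F => F.Reachable a u ∧ F.Reachable b v),
        wt q F * (q (u, v) * q (v, u)) =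
      ∑ T ∈ (trees K).filter (fun T => T.Adj u v ∧ (cut T u v).Reachable a u ∧
        (cut T u v).Reachable b v), wt q T := by
  have hne := huv.ne
  refine sum_nbij' (fun F => F ⊔ edge u v) (fun T => cut T u v) ?_ ?_ ?_ ?_ ?_
  · intro F hF
    simp only [forests, trees, mem_filter, mem_univ, true_and] at hF ⊢
    obtain ⟨⟨hFK, hac, hnab, hall⟩, hau, hbv⟩ := hF
    have hnuv : ¬ F.Reachable u v := fun h => hnab (hau.trans (h.trans hbv.symm))
    have hnadj : ¬ F.Adj u v := fun h => hnuv h.reachable
    have hadj : (F ⊔ edge u v).Adj u v := by simp [edge_adj, hne]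
    have hcut : cut (F ⊔ edge u v) u v = F := by
      simp [cut, hnadj]
    refine ⟨⟨sup_le hFK ((edge_le_iff K).2 (Or.inr huv)), ?_, hac.sup_edge_of_not_reachable hnuv⟩,
      hadj, by rw [hcut]; exact hau, by rw [hcut]; exact hbv⟩
    rw [connected_iff_exists_forall_reachable]
    refine ⟨a, fun x => ?_⟩
    rcases hall x with h | h
    · exact h.mono le_sup_left
    · exact ((hau.mono le_sup_left).trans hadj.reachable).trans
        ((hbv.symm.trans h).mono le_sup_left)
  · intro T hT
    simp only [forests, trees, mem_filter, mem_univ, true_and] at hT ⊢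
    obtain ⟨⟨hTK, hT⟩, hadj, hau, hbv⟩ := hT
    have hnr := not_reach_cut hT.isAcyclic hadj
    refine ⟨⟨(cut_le T u v).trans hTK, hT.isAcyclic.anti (cut_le T u v), ?_, ?_⟩, hau, hbv⟩
    · exact fun h => hnr (hau.symm.trans (h.trans hbv))
    · intro x
      rcases reach_cut_or T u v x (hT.connected u x) with h | h
      · exact Or.inl (hau.trans h)
      · exact Or.inr (hbv.trans h)
  · intro F hF
    simp only [forests, mem_filter, mem_univ, true_and] at hF
    obtain ⟨⟨hFK, hac, hnab, hall⟩, hau, hbv⟩ := hF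
    have hnuv : ¬ F.Reachable u v := fun h => hnab (hau.trans (h.trans hbv.symm))
    have hnadj : ¬ F.Adj u v := fun h => hnuv h.reachable
    simp [cut, hnadj]
  · intro T hT
    simp only [trees, mem_filter, mem_univ, true_and] at hT
    obtain ⟨⟨hTK, hT⟩, hadj, hau, hbv⟩ := hT
    ext x y
    simp only [sup_adj, cut_adj, edge_adj]
    constructor
    · rintro (h | ⟨⟨rfl, rfl⟩ | ⟨rfl, rfl⟩, _⟩)
      · exact h.1
      · exact hadj
      · exact hadj.symm
    · intro h
      by_cases he : s(x, y) = s(u, v)
      · right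
        rw [Sym2.eq_iff] at he
        exact ⟨he, h.ne⟩
      · exact Or.inl ⟨h, he⟩
  · intro F hF
    simp only [forests, mem_filter, mem_univ, true_and] at hF
    obtain ⟨⟨hFK, hac, hnab, hall⟩, hau, hbv⟩ := hF
    have hnuv : ¬ F.Reachable u v := fun h => hnab (hau.trans (h.trans hbv.symm))
    have hnadj : ¬ F.Adj u v := fun h => hnuv h.reachable
    rw [wt_sup_edge q hne hnadj]

/-- Total weight of spanning trees. -/
noncomputable def Ztree (q : V × V → ℝ) (K : SimpleGraph V) : ℝ := ∑ T ∈ trees K, wt q T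

/-- Total weight of separating forests. -/
noncomputable def Zfor (q : V × V → ℝ) (K : SimpleGraph V) (a b : V) : ℝ :=
  ∑ F ∈ forests K a b, wt q F

/-- Weight of the separating forests in which `x` lies on the side of `a`. -/
noncomputable def pot (q : V × V → ℝ) (K : SimpleGraph V) (a b x : V) : ℝ :=
  ∑ F ∈ forests K a b, if F.Reachable a x then wt q F else 0

lemma pot_left (q : V × V → ℝ) (K : SimpleGraph V) (a b : V) : pot q K a b a = Zfor q K a b := by
  simp [pot, Zfor]

lemma pot_right (q : V × V → ℝ) (K : SimpleGraph V) (a b : V) : pot q K a b b = 0 := by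
  unfold pot
  refine sum_eq_zero fun F hF => ?_
  simp only [forests, mem_filter, mem_univ, true_and] at hF
  simp [hF.2.2.1]

lemma pot_sub (q : V × V → ℝ) {K : SimpleGraph V} (a b : V) {u v : V} (huv : K.Adj u v) :
    q (u, v) * q (v, u) * (pot q K a b u - pot q K a b v) =
      ∑ T ∈ trees K, if T.Adj u v then wt q T * (side T u v a - side T u v b) else 0 := by
  have h1 := forest_tree_bij q a b huv
  have h2 := forest_tree_bij q a b huv.symm
  rw [sum_filter, sum_filter] at h1 h2
  have e1 : q (u, v) * q (v, u) * (pot q K a b u - pot q K a b v) =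
      (∑ F ∈ forests K a b, if F.Reachable a u ∧ F.Reachable b v then
        wt q F * (q (u, v) * q (v, u)) else 0) -
      (∑ F ∈ forests K a b, if F.Reachable a v ∧ F.Reachable b u then
        wt q F * (q (v, u) * q (u, v)) else 0) := by
    unfold pot
    rw [← sum_sub_distrib, ← sum_sub_distrib, mul_sum]
    refine sum_congr rfl fun F hF => ?_
    simp only [forests, mem_filter, mem_univ, true_and] at hF
    obtain ⟨_, _, hnab, hall⟩ := hF
    have hb : ∀ x, F.Reachable b x ↔ ¬ F.Reachable a x := fun x =>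
      ⟨fun h h' => hnab (h'.trans h.symm), fun h => (hall x).resolve_left h⟩
    simp only [hb]
    by_cases hu : F.Reachable a u <;> by_cases hv : F.Reachable a v <;> simp [hu, hv] <;> ring
  rw [e1, h1, h2, ← sum_sub_distrib]
  refine sum_congr rfl fun T hT => ?_
  simp only [trees, mem_filter, mem_univ, true_and] at hT
  obtain ⟨_, hT⟩ := hT
  by_cases hadj : T.Adj u v
  · have hnr := not_reach_cut hT.isAcyclic hadj
    have hv : ∀ x, (cut T u v).Reachable x v ↔ ¬ (cut T u v).Reachable u x := fun x =>
      ⟨fun h h' => hnr (h'.trans h), fun h =>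
        ((reach_cut_or T u v x (hT.connected u x)).resolve_left h).symm⟩
    have hu : ∀ x, (cut T u v).Reachable x u ↔ (cut T u v).Reachable u x := fun x =>
      reachable_comm
    simp only [hadj, hadj.symm, true_and, if_true, ← cut_comm T u v, hv, hu, side]
    by_cases ha : (cut T u v).Reachable u a <;> by_cases hb : (cut T u v).Reachable u b <;>
      simp [ha, hb]
  · have hadj' : ¬ T.Adj v u := fun h => hadj h.symm
    simp [hadj, hadj']

/-- Kirchhoff's identity. -/
lemma kirchhoff_identity (q : V × V → ℝ) (K : SimpleGraph V) (a b : V) (ψ : V → ℝ) :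
    ∑ p : V × V, (if K.Adj p.1 p.2 then q p * q p.swap else 0) *
        ((pot q K a b p.1 - pot q K a b p.2) * (ψ p.1 - ψ p.2)) =
      2 * Ztree q K * (ψ a - ψ b) := by
  have : ∀ p : V × V, (if K.Adj p.1 p.2 then q p * q p.swap else 0) *
        ((pot q K a b p.1 - pot q K a b p.2) * (ψ p.1 - ψ p.2)) =
      ∑ T ∈ trees K, wt q T * (if T.Adj p.1 p.2 then
        (side T p.1 p.2 a - side T p.1 p.2 b) * (ψ p.1 - ψ p.2) else 0) := by
    rintro ⟨u, v⟩
    by_cases huv : K.Adj u v
    · simp only [huv, if_true, Prod.swap_prod_mk]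
      rw [← mul_assoc, pot_sub q a b huv, sum_mul]
      refine sum_congr rfl fun T _ => ?_
      split_ifs <;> ring
    · simp only [huv, if_false, zero_mul]
      symm
      refine sum_eq_zero fun T hT => ?_
      simp only [trees, mem_filter, mem_univ, true_and] at hT
      have : ¬ T.Adj u v := fun h => huv (hT.1 h)
      simp [this]
  rw [sum_congr rfl fun p _ => this p, sum_comm]
  unfold Ztree
  rw [mul_sum, sum_mul]
  refine sum_congr rfl fun T hT => ?_
  simp only [trees, mem_filter, mem_univ, true_and] at hT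
  rw [← mul_sum, path_identity hT.2.isAcyclic ψ (hT.2.connected a b)]
  ring

lemma sum_trees_adj (q : V × V → ℝ) {K : SimpleGraph V} {a b : V} (hab : K.Adj a b) :
    ∑ T ∈ trees K, (if T.Adj a b then wt q T else 0) = Zfor q K a b * (q (a, b) * q (b, a)) := by
  have h := forest_tree_bij q a b hab
  simp only [Reachable.rfl, and_self, and_true, filter_true] at h
  rw [sum_filter] at h
  rw [← h, Zfor, sum_mul]

lemma trees_nonempty {K : SimpleGraph V} (hK : K.Connected) : (trees K).Nonempty := by
  obtain ⟨T, h1, h2⟩ := hK.exists_isTree_le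
  exact ⟨T, by simp [trees, h1, h2]⟩

lemma Ztree_pos {q : V × V → ℝ} (hq : ∀ p, 0 < q p) {K : SimpleGraph V} (hK : K.Connected) :
    0 < Ztree q K :=
  sum_pos (fun T _ => wt_pos hq T) (trees_nonempty hK)

lemma Zfor_pos {q : V × V → ℝ} (hq : ∀ p, 0 < q p) {K : SimpleGraph V} (hK : K.Connected)
    {a b : V} (hab : a ≠ b) : 0 < Zfor q K a b := by
  have hnn : 0 ≤ Zfor q K a b := sum_nonneg fun F _ => (wt_pos hq F).le
  rcases hnn.lt_or_eq with h | h
  · exact h
  · exfalso
    have hempty : forests K a b = ∅ := by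
      by_contra hne
      have := sum_pos (fun F (_ : F ∈ forests K a b) => wt_pos hq F) (nonempty_iff_ne_empty.2 hne)
      unfold Zfor at h
      linarith
    have h2 := kirchhoff_identity q K a b (fun x => if x = a then 1 else 0)
    simp only [pot, hempty, sum_empty, sub_self, zero_mul, mul_zero, sum_const_zero, if_true,
      hab.symm, if_false] at h2
    have := Ztree_pos hq hK
    linarith

/-- Dirichlet's principle: the minimal energy is `2 Ztree / Zfor`. -/
lemma energy_ge {q : V × V → ℝ} (hq : ∀ p, 0 < q p) {K : SimpleGraph V} (hK : K.Connected)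
    {a b : V} (hab : a ≠ b) (ψ : V → ℝ) (hψ : ψ a - ψ b = 1) :
    2 * Ztree q K / Zfor q K a b ≤
      ∑ p : V × V, (if K.Adj p.1 p.2 then q p * q p.swap else 0) * (ψ p.1 - ψ p.2) ^ 2 := by
  have hZ := Zfor_pos hq hK hab
  set Z := Zfor q K a b with hZdef
  have h1 := kirchhoff_identity q K a b ψ
  have h2 := kirchhoff_identity q K a b (pot q K a b)
  rw [pot_left, pot_right, ← hZdef] at h2
  rw [hψ] at h1
  have h3 : 0 ≤ ∑ p : V × V, (if K.Adj p.1 p.2 then q p * q p.swap else 0) *
      (Z * (ψ p.1 - ψ p.2) - (pot q K a b p.1 - pot q K a b p.2)) ^ 2 := by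
    refine sum_nonneg fun p _ => mul_nonneg ?_ (sq_nonneg _)
    split_ifs
    · exact (mul_pos (hq _) (hq _)).le
    · exact le_rfl
  have h4 : ∑ p : V × V, (if K.Adj p.1 p.2 then q p * q p.swap else 0) *
      (Z * (ψ p.1 - ψ p.2) - (pot q K a b p.1 - pot q K a b p.2)) ^ 2 =
      Z ^ 2 * (∑ p : V × V, (if K.Adj p.1 p.2 then q p * q p.swap else 0) * (ψ p.1 - ψ p.2) ^ 2)
      - 2 * Z * (∑ p : V × V, (if K.Adj p.1 p.2 then q p * q p.swap else 0) *
        ((pot q K a b p.1 - pot q K a b p.2) * (ψ p.1 - ψ p.2)))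
      + ∑ p : V × V, (if K.Adj p.1 p.2 then q p * q p.swap else 0) *
        ((pot q K a b p.1 - pot q K a b p.2) * (pot q K a b p.1 - pot q K a b p.2)) := by
    rw [mul_sum, mul_sum, ← sum_sub_distrib, ← sum_add_distrib]
    refine sum_congr rfl fun p _ => ?_
    ring
  rw [h4, h1, h2] at h3
  rw [div_le_iff₀ hZ]
  have h5 : 0 ≤ Z * (Z * (∑ p : V × V, (if K.Adj p.1 p.2 then q p * q p.swap else 0) *
      (ψ p.1 - ψ p.2) ^ 2) - 2 * Ztree q K) := by nlinarith
  have h6 := (mul_nonneg_iff_of_pos_left hZ).1 h5
  linarith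

lemma energy_attained {q : V × V → ℝ} (hq : ∀ p, 0 < q p) {K : SimpleGraph V} (hK : K.Connected)
    {a b : V} (hab : a ≠ b) : ∃ ψ : V → ℝ, ψ a - ψ b = 1 ∧
      ∑ p : V × V, (if K.Adj p.1 p.2 then q p * q p.swap else 0) * (ψ p.1 - ψ p.2) ^ 2 =
        2 * Ztree q K / Zfor q K a b := by
  have hZ := Zfor_pos hq hK hab
  refine ⟨fun x => pot q K a b x / Zfor q K a b, ?_, ?_⟩
  · simp only [pot_left, pot_right]
    field_simp
    ring
  · have h2 := kirchhoff_identity q K a b (pot q K a b)
    rw [pot_left, pot_right] at h2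
    have : ∀ p : V × V, (if K.Adj p.1 p.2 then q p * q p.swap else 0) *
        (pot q K a b p.1 / Zfor q K a b - pot q K a b p.2 / Zfor q K a b) ^ 2 =
        ((if K.Adj p.1 p.2 then q p * q p.swap else 0) *
        ((pot q K a b p.1 - pot q K a b p.2) * (pot q K a b p.1 - pot q K a b p.2))) /
          (Zfor q K a b) ^ 2 := by
      intro p
      field_simp
    rw [sum_congr rfl fun p _ => this p, ← sum_div, h2]
    field_simp
    ring

end Vale.Agent.P143
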