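import Vale.Agent.P143.Flow

/-!
The Laplace distribution and its shift formula.
-/

open Finset Filter Topology MeasureTheory

namespace Vale.Agent.P143

/-- Laplace density. -/
noncomputable def lapDens (a : ℝ) : ℝ := Real.exp (-|a|) / 2

/-- Laplace distribution. -/
noncomputable def lap : Measure ℝ := volume.withDensity fun a => ENNReal.ofReal (lapDens a)

lemma lapDens_pos (a : ℝ) : 0 < lapDens a := by unfold lapDens; positivity

lemma continuous_lapDens : Continuous lapDens := by unfold lapDens; fun_prop

lemma integral_exp_abs {b : ℝ} (hb : 0 < b) : ∫ x : ℝ, Real.exp (-b * |x|) = 2 / b := by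
  rw [integral_comp_abs (f := fun x => Real.exp (-b * x)), integral_exp_mul_Ioi (by linarith)]
  simp only [mul_zero, Real.exp_zero]
  field_simp

lemma integrable_exp_abs {b : ℝ} (hb : 0 < b) : Integrable fun x : ℝ => Real.exp (-b * |x|) := by
  apply Integrable.of_integral_ne_zero
  rw [integral_exp_abs hb]
  positivity

lemma integral_lapDens : ∫ x, lapDens x = 1 := by
  have := integral_exp_abs one_pos
  simp only [neg_mul, one_mul, div_one] at this
  unfold lapDens
  rw [integral_div, this]
  norm_num

lemma integrable_lapDens : Integrable lapDens := by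
  apply Integrable.of_integral_ne_zero
  rw [integral_lapDens]
  norm_num

instance : IsProbabilityMeasure lap := by
  constructor
  rw [lap, withDensity_apply _ MeasurableSet.univ, Measure.restrict_univ,
    ← ofReal_integral_eq_lintegral_ofReal integrable_lapDens
      (ae_of_all _ fun x => (lapDens_pos x).le), integral_lapDens]
  simp

instance : NullSingletonClass lap := by unfold lap; infer_instance

lemma integral_lap (f : ℝ → ℝ) : ∫ x, f x ∂lap = ∫ x, lapDens x * f x := by
  rw [lap, integral_withDensity_eq_integral_toReal_smul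
    continuous_lapDens.measurable.ennreal_ofReal (by simp)]
  simp [ENNReal.toReal_ofReal (lapDens_pos _).le]

lemma lap_tail (r : ℝ) : lap.real {a | r ≤ |a|} ≤ 2 * Real.exp (-r / 2) := by
  have e : ∀ x : ℝ, lapDens x * Real.exp (|x| / 2) = Real.exp (-(1 / 2) * |x|) / 2 := by
    intro x
    unfold lapDens
    rw [div_mul_eq_mul_div, ← Real.exp_add]
    congr 2
    ring
  have h1 : ∫ x, Real.exp (|x| / 2) ∂lap = 2 := by
    rw [integral_lap]
    simp only [e]
    rw [integral_div, integral_exp_abs (by norm_num)]
    norm_num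
  have h2 : Integrable (fun x => Real.exp (|x| / 2)) lap := by
    apply Integrable.of_integral_ne_zero
    rw [h1]; norm_num
  have h3 := mul_meas_ge_le_integral_of_nonneg (μ := lap)
    (ae_of_all _ fun x => (Real.exp_pos (|x| / 2)).le) h2 (Real.exp (r / 2))
  rw [h1] at h3
  have h4 : {a : ℝ | r ≤ |a|} = {x | Real.exp (r / 2) ≤ Real.exp (|x| / 2)} := by
    ext a
    simp only [Set.mem_ofPred_eq, Real.exp_le_exp]
    constructor <;> intro h <;> linarith
  rw [h4]
  have h5 : Real.exp (-r / 2) * Real.exp (r / 2) = 1 := by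
    rw [← Real.exp_add, show -r / 2 + r / 2 = 0 by ring, Real.exp_zero]
  have h6 := Real.exp_pos (-r / 2)
  calc lap.real {x | Real.exp (r / 2) ≤ Real.exp (|x| / 2)}
      = Real.exp (-r / 2) * (Real.exp (r / 2) *
        lap.real {x | Real.exp (r / 2) ≤ Real.exp (|x| / 2)}) := by rw [← mul_assoc, h5, one_mul]
    _ ≤ Real.exp (-r / 2) * 2 := mul_le_mul_of_nonneg_left h3 h6.le
    _ = _ := by ring

variable {ι : Type} [Fintype ι]

/-- Product Laplace measure. -/
noncomputable def lapPi (ι : Type) [Fintype ι] : Measure (ι → ℝ) := Measure.pi fun _ => lap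

instance : IsProbabilityMeasure (lapPi ι) := by unfold lapPi; infer_instance

lemma lapPi_eq : lapPi ι =
    (volume : Measure (ι → ℝ)).withDensity fun y => ENNReal.ofReal (∏ i, lapDens (y i)) := by
  refine Measure.pi_eq fun s hs => ?_
  rw [withDensity_apply _ (MeasurableSet.univ_pi hs), ← lintegral_indicator
    (MeasurableSet.univ_pi hs)]
  have e : ∀ y : ι → ℝ, (Set.univ.pi s).indicator
      (fun y => ENNReal.ofReal (∏ i, lapDens (y i))) y =
      ENNReal.ofReal (∏ i, (s i).indicator lapDens (y i)) := by
    intro y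
    by_cases hy : y ∈ Set.univ.pi s
    · rw [Set.indicator_of_mem hy]
      congr 1
      exact prod_congr rfl fun i _ => (Set.indicator_of_mem (hy i trivial) _).symm
    · rw [Set.indicator_of_notMem hy]
      simp only [Set.mem_pi, Set.mem_univ, forall_const, not_forall] at hy
      obtain ⟨i, hi⟩ := hy
      rw [prod_eq_zero (mem_univ i) (Set.indicator_of_notMem hi _)]
      simp
  simp only [e]
  have hnn : ∀ i a, 0 ≤ (s i).indicator lapDens a := fun i a =>
    Set.indicator_nonneg (fun x _ => (lapDens_pos x).le) a
  have hint : ∀ i, Integrable ((s i).indicator lapDens) := fun i =>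
    integrable_lapDens.indicator (hs i)
  rw [volume_pi, ← ofReal_integral_eq_lintegral_ofReal (Integrable.fintype_prod (μ := fun _ => volume) hint)
    (ae_of_all _ fun y => prod_nonneg fun i _ => hnn i _),
    integral_fintype_prod_eq_prod (fun i => (s i).indicator lapDens),
    ENNReal.ofReal_prod_of_nonneg (fun i _ => integral_nonneg (hnn i))]
  refine prod_congr rfl fun i _ => ?_
  rw [lap, withDensity_apply _ (hs i), integral_indicator (hs i),
    ofReal_integral_eq_lintegral_ofReal integrable_lapDens.integrableOn
      (ae_of_all _ fun x => (lapDens_pos x).le)]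

lemma integral_lapPi (f : (ι → ℝ) → ℝ) :
    ∫ y, f y ∂lapPi ι = ∫ y, (∏ i, lapDens (y i)) * f y := by
  have hm : Measurable fun y : ι → ℝ => ∏ i, lapDens (y i) :=
    (continuous_finsetProd _ fun i _ => continuous_lapDens.comp (continuous_apply i)).measurable
  rw [lapPi_eq, integral_withDensity_eq_integral_toReal_smul hm.ennreal_ofReal (by simp)]
  congr 1
  funext y
  rw [ENNReal.toReal_ofReal (prod_nonneg fun i _ => (lapDens_pos _).le), smul_eq_mul]

/-- Likelihood ratio of a shift. -/
noncomputable def lik (a y : ι → ℝ) : ℝ := ∏ i, Real.exp (llr (a i) (y i))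

lemma lik_pos (a y : ι → ℝ) : 0 < lik a y := prod_pos fun _ _ => Real.exp_pos _

lemma lik_le (a y : ι → ℝ) : lik a y ≤ ∏ i, Real.exp |a i| :=
  prod_le_prod (fun _ _ => (Real.exp_pos _).le) fun i _ =>
    Real.exp_le_exp.2 (abs_le.1 (llr_abs_le (a i) (y i))).2

lemma continuous_lik (a : ι → ℝ) : Continuous (lik a) :=
  continuous_finsetProd _ fun i _ =>
    Real.continuous_exp.comp ((continuous_llr (a i)).comp (continuous_apply i))

/-- Shift formula. -/
lemma integral_shift (f : (ι → ℝ) → ℝ) (a : ι → ℝ) :
    ∫ z, f (z + a) ∂lapPi ι = ∫ y, lik a y * f y ∂lapPi ι := by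
  rw [integral_lapPi, integral_lapPi,
    ← integral_add_right_eq_self (fun y => (∏ i, lapDens (y i)) * (lik a y * f y)) a]
  congr 1
  funext z
  rw [← mul_assoc]
  congr 1
  unfold lik
  rw [← prod_mul_distrib]
  refine prod_congr rfl fun i _ => ?_
  simp only [lapDens, llr, Pi.add_apply, add_sub_cancel_right]
  rw [div_mul_eq_mul_div, ← Real.exp_add]
  congr 2
  ring

end Vale.Agent.P143
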