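import Vale.Agent.P143.Key

/-!
The infinite volume limit.
-/

open Finset SimpleGraph Filter Topology MeasureTheory ProbabilityTheory

namespace Vale.Agent.P143

open scoped Classical

variable {V : Type}

lemma exh_ev {G : SimpleGraph V} {H : ℕ → G.Subgraph} (hH : IsExhaustion G H) {u v : V}
    (h : G.Adj u v) : ∀ᶠ n in atTop, (H n).Adj u v := by
  have h1 : (⨆ n, H n).Adj u v := by rw [hH.2.2.2]; exact h
  obtain ⟨m, hm⟩ := Subgraph.iSup_adj.1 h1
  filter_upwards [eventually_ge_atTop m] with n hn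
  exact (hH.2.2.1 hn).2 hm

lemma measurable_Y [Countable V] {Ω : Type} [MeasurableSpace Ω] {K : Ω → SimpleGraph V}
    (hK : Measurable K) {z : Ω → V × V → ℝ} (hz : Measurable z) (t : ℕ) (p : V × V) :
    Measurable fun ω => Y (K ω) t (z ω) p :=
  (measurable_pi_apply p).comp (measurable_euler hK hz _ _)

section

variable [Countable V] {Ω : Type} [MeasurableSpace Ω] {P : Measure Ω} [IsProbabilityMeasure P]
  {G : SimpleGraph V} {Z : Ω → V × V → ℝ}

lemma tendsto_Y_integral (hG : LocFin G) (hZ : IsNoise P G Z) {H : ℕ → G.Subgraph}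
    (hH : IsExhaustion G H) {κ : Type} [Fintype κ] (d : κ → V × V) {g : (κ → ℝ) → ℝ}
    (hg0 : ∀ y, 0 ≤ g y) (hg1 : ∀ y, g y ≤ 1) (hg : Continuous g) (t : ℕ) :
    Tendsto (fun n => ∫ ω, g (fun j => Y (H n).spanningCoe t (Z ω) (d j)) ∂P) atTop
      (𝓝 (∫ ω, g (fun j => Y G t (Z ω) (d j)) ∂P)) := by
  refine tendsto_integral_of_dominated_convergence (fun _ => 1) ?_ (integrable_const _) ?_ ?_
  · intro n
    exact (hg.measurable.comp (measurable_pi_lambda _ fun j =>
      measurable_Y measurable_const hZ.1 t (d j))).aestronglyMeasurable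
  · intro n
    refine ae_of_all _ fun ω => ?_
    rw [Real.norm_eq_abs, abs_of_nonneg (hg0 _)]
    exact hg1 _
  · refine ae_of_all _ fun ω => (hg.tendsto _).comp (tendsto_pi_nhds.2 fun j => ?_)
    exact tendsto_euler hG (fun n => (H n).spanningCoe_le) (fun u v h => exh_ev hH h) _ _ _ _

/-- Clamp to the unit interval. -/
noncomputable def ramp (a : ℝ) : ℝ := max 0 (min 1 a)

lemma ramp_nonneg (a : ℝ) : 0 ≤ ramp a := le_max_left _ _

lemma ramp_le_one (a : ℝ) : ramp a ≤ 1 := max_le zero_le_one (min_le_left _ _)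

lemma ramp_of_nonpos {a : ℝ} (h : a ≤ 0) : ramp a = 0 :=
  max_eq_left ((min_le_right _ _).trans h)

lemma ramp_of_one_le {a : ℝ} (h : 1 ≤ a) : ramp a = 1 := by
  simp [ramp, min_eq_left h]

lemma ramp_lip (a b : ℝ) : |ramp a - ramp b| ≤ |a - b| := by
  unfold ramp
  refine (abs_max_sub_max_le_max _ _ _ _).trans (max_le (by simp) ?_)
  refine (abs_min_sub_min_le_max _ _ _ _).trans (max_le (by simp) le_rfl)

lemma middle_prob_le (hG : LocFin G) (hZ : IsNoise P G Z) {H : ℕ → G.Subgraph}
    (hH : IsExhaustion G H) {u v : V} (huv : G.Adj u v) (t : ℕ) :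
    P.real {ω | |Y G t (Z ω) (u, v) + Y G t (Z ω) (v, u) - t| ≤ t / 2} ≤
      2 * (2 * (1 / 2) ^ t) + 2 * (2 * Real.exp (-(t / 4 - 1 / 2) / 2)) := by
  let d : Bool → V × V := fun b => if b then (u, v) else (v, u)
  let g : (Bool → ℝ) → ℝ := fun y => ramp (t / 2 + 1 - |y true + y false - t|)
  have hg : ∀ y y' δ, (∀ i, |y i - y' i| ≤ δ) → |g y - g y'| ≤ 2 * δ := by
    intro y y' δ h
    refine (ramp_lip _ _).trans ?_
    have h1 := abs_abs_sub_abs_le_abs_sub (y' true + y' false - t) (y true + y false - t)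
    have h2 := abs_le.1 (h true)
    have h3 := abs_le.1 (h false)
    have h4 : |y' true + y' false - t - (y true + y false - t)| ≤ 2 * δ := by
      rw [abs_le]; constructor <;> linarith [h2.1, h2.2, h3.1, h3.2]
    rw [show (t : ℝ) / 2 + 1 - |y true + y false - t| - (t / 2 + 1 - |y' true + y' false - t|) =
      |y' true + y' false - t| - |y true + y false - t| by ring]
    linarith
  have hgc := continuous_of_lip hg (by norm_num)
  have h1 := tendsto_Y_integral hG hZ hH d (g := g) (fun _ => ramp_nonneg _)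
    (fun _ => ramp_le_one _) hgc t
  have h2 : ∫ ω, g (fun j => Y G t (Z ω) (d j)) ∂P ≤
      2 * (2 * (1 / 2) ^ t) + 2 * (2 * Real.exp (-(t / 4 - 1 / 2) / 2)) := by
    refine le_of_tendsto h1 ?_
    filter_upwards [exh_ev hH huv] with n hn
    have := (hH.1 n).fintype
    have h3 := key_finite hZ (H n) (hH.2.1 n) d (by
        rintro (_ | _)
        · exact hn.symm
        · exact hn) (g := g) (M := 2) (by norm_num) (fun _ => ramp_nonneg _)
      (fun _ => ramp_le_one _) hg t (t / 4 - 1 / 2) (F := fun _ => 0) (fun _ => le_rfl)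
      (fun _ => zero_le_one) (by
        intro T z hz
        refine ramp_of_nonpos ?_
        have h4 := abs_lt.1 (hz true)
        have h5 := abs_lt.1 (hz false)
        simp only [d, indAdj, if_true, Bool.false_eq_true, if_false]
        by_cases hT : T.Adj u v
        · simp only [hT, hT.symm, if_true]
          rw [abs_of_nonneg] <;> linarith [h4.1, h4.2, h5.1, h5.2]
        · have hT' : ¬ T.Adj v u := fun h => hT h.symm
          simp only [hT, hT', if_false]
          rw [abs_of_nonpos] <;> linarith [h4.1, h4.2, h5.1, h5.2])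
    simp only [sum_const_zero, zero_div, sub_zero, Fintype.card_bool, Nat.cast_ofNat] at h3
    exact (le_abs_self _).trans h3
  refine le_trans ?_ h2
  have hm : Measurable fun ω => Y G t (Z ω) (u, v) + Y G t (Z ω) (v, u) - t :=
    ((measurable_Y measurable_const hZ.1 t _).add
      (measurable_Y measurable_const hZ.1 t _)).sub measurable_const
  have hms : MeasurableSet {ω | |Y G t (Z ω) (u, v) + Y G t (Z ω) (v, u) - t| ≤ t / 2} :=
    measurableSet_le hm.abs measurable_const
  rw [← integral_indicator_one hms]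
  refine integral_mono ((integrable_const (1 : ℝ)).indicator hms) ?_ fun ω => ?_
  · refine Integrable.of_bound (hgc.measurable.comp (measurable_pi_lambda _ fun j =>
      measurable_Y measurable_const hZ.1 t (d j))).aestronglyMeasurable 1 (ae_of_all _ fun ω => ?_)
    rw [Real.norm_eq_abs, abs_of_nonneg (ramp_nonneg _)]
    exact ramp_le_one _
  · by_cases hω : ω ∈ {ω | |Y G t (Z ω) (u, v) + Y G t (Z ω) (v, u) - t| ≤ t / 2}
    · rw [Set.indicator_of_mem hω]
      refine le_of_eq (ramp_of_one_le ?_).symm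
      simp only [Set.mem_ofPred_eq] at hω
      simp only [d, if_true, Bool.false_eq_true, if_false]
      linarith
    · rw [Set.indicator_of_notMem hω]
      exact ramp_nonneg _

lemma dichotomy_seq {a : ℕ → ℝ} (hs : ∀ t, |a (t + 1) - a t| ≤ 6)
    (h : ∀ᶠ t : ℕ in atTop, ¬ |a t - t| ≤ t / 2) :
    (∀ᶠ t : ℕ in atTop, 3 * (t : ℝ) / 2 < a t) ∨ (∀ᶠ t : ℕ in atTop, a t < (t : ℝ) / 2) := by
  obtain ⟨t₀, ht₀⟩ := eventually_atTop.1 (h.and (eventually_ge_atTop 7))
  have key : ∀ t, t₀ ≤ t → 3 * (t : ℝ) / 2 < a t ∨ a t < (t : ℝ) / 2 := by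
    intro t ht
    have := (ht₀ t ht).1
    rw [abs_le, not_and_or, not_le, not_le] at this
    rcases this with h | h
    · right; linarith
    · left; linarith
  have h7 : ∀ t, t₀ ≤ t → (7 : ℝ) ≤ t := fun t ht => by exact_mod_cast (ht₀ t ht).2
  rcases key t₀ le_rfl with h0 | h0
  · left
    refine eventually_atTop.2 ⟨t₀, fun t ht => ?_⟩
    induction t, ht using Nat.le_induction with
    | base => exact h0
    | succ t ht ih =>
      refine (key (t + 1) (by omega)).resolve_right ?_
      have := abs_le.1 (hs t)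
      have := h7 t ht
      push_cast
      linarith
  · right
    refine eventually_atTop.2 ⟨t₀, fun t ht => ?_⟩
    induction t, ht using Nat.le_induction with
    | base => exact h0
    | succ t ht ih =>
      refine (key (t + 1) (by omega)).resolve_left ?_
      have := abs_le.1 (hs t)
      have := h7 t ht
      push_cast
      linarith

lemma dichotomy (hG : LocFin G) (hZ : IsNoise P G Z) {H : ℕ → G.Subgraph}
    (hH : IsExhaustion G H) {u v : V} (huv : G.Adj u v) : ∀ᵐ ω ∂P,
    (∀ᶠ t : ℕ in atTop, 3 * (t : ℝ) / 2 < Y G t (Z ω) (u, v) + Y G t (Z ω) (v, u)) ∨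
    (∀ᶠ t : ℕ in atTop, Y G t (Z ω) (u, v) + Y G t (Z ω) (v, u) < (t : ℝ) / 2) := by
  have hsum : Summable fun t : ℕ =>
      2 * (2 * (1 / 2 : ℝ) ^ t) + 2 * (2 * Real.exp (-(t / 4 - 1 / 2) / 2)) := by
    refine ((summable_geometric_two.mul_left 2).mul_left 2).add
      (Summable.mul_left 2 (Summable.mul_left 2 ?_))
    have := (Real.summable_exp_nat_mul_iff.2 (by norm_num : (-1 / 8 : ℝ) < 0)).mul_left
      (Real.exp (1 / 4))
    refine this.congr fun t => ?_
    rw [← Real.exp_add]
    congr 1
    ring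
  have h1 : ∑' t : ℕ, P {ω | |Y G t (Z ω) (u, v) + Y G t (Z ω) (v, u) - t| ≤ t / 2} ≠ ⊤ := by
    refine ne_top_of_le_ne_top hsum.tsum_ofReal_ne_top (ENNReal.tsum_le_tsum fun t => ?_)
    rw [← ofReal_measureReal]
    exact ENNReal.ofReal_le_ofReal (middle_prob_le hG hZ hH huv t)
  filter_upwards [ae_eventually_notMem h1] with ω hω
  refine dichotomy_seq (a := fun t => Y G t (Z ω) (u, v) + Y G t (Z ω) (v, u)) (fun t => ?_) hω
  have h2 := abs_le.1 (Y_succ hG t (Z ω) (u, v))
  have h3 := abs_le.1 (Y_succ hG t (Z ω) (v, u))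
  rw [abs_le]
  constructor <;> linarith [h2.1, h2.2, h3.1, h3.2]

end

/-- The edge is kept when the flow eventually exceeds the threshold. -/
noncomputable def Phi (G : SimpleGraph V) (z : V × V → ℝ) : Sym2 V → Bool :=
  Sym2.lift ⟨fun u v => decide (∀ᶠ t : ℕ in atTop, (t : ℝ) < Y G t z (u, v) + Y G t z (v, u)),
    fun u v => by simp only [add_comm]⟩

lemma measurable_Phi [Countable V] {Ω : Type} [MeasurableSpace Ω] {K : Ω → SimpleGraph V}
    (hK : Measurable K) {z : Ω → V × V → ℝ} (hz : Measurable z) (e : Sym2 V) :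
    Measurable fun ω => Phi (K ω) (z ω) e := by
  induction e using Sym2.ind with
  | h u v =>
    refine measurable_to_bool ?_
    have : (fun ω => Phi (K ω) (z ω) s(u, v)) ⁻¹' {true} =
        ⋃ t₀ : ℕ, ⋂ t : ℕ, ⋂ _ : t₀ ≤ t,
          {ω | (t : ℝ) < Y (K ω) t (z ω) (u, v) + Y (K ω) t (z ω) (v, u)} := by
      ext ω
      simp [Phi]
    rw [this]
    refine MeasurableSet.iUnion fun t₀ => MeasurableSet.iInter fun t =>
      MeasurableSet.iInter fun _ => measurableSet_lt measurable_const ?_
    exact (measurable_Y hK hz t _).add (measurable_Y hK hz t _)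

section

variable [Countable V] {Ω : Type} [MeasurableSpace Ω] {P : Measure Ω} [IsProbabilityMeasure P]
  {G : SimpleGraph V} {Z : Ω → V × V → ℝ}

lemma tendsto_cylinder (hG : LocFin G) (hZ : IsNoise P G Z) {H : ℕ → G.Subgraph}
    (hH : IsExhaustion G H) (s : Finset G.edgeSet) (b : G.edgeSet → Bool) :
    Tendsto (fun n => (ust (H n)).real {x | ∀ e ∈ s, x e = b e}) atTop
      (𝓝 (P.real {ω | ∀ e ∈ s, Phi G (Z ω) e.1 = b e})) := by
  have hrep : ∀ e : G.edgeSet, ∃ p : V × V, e.1 = s(p.1, p.2) ∧ G.Adj p.1 p.2 := by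
    rintro ⟨e, he⟩
    induction e using Sym2.ind with
    | h u v => exact ⟨(u, v), rfl, he⟩
  choose rep hrep1 hrep2 using hrep
  let d : s × Bool → V × V := fun j => if j.2 then rep j.1 else (rep j.1).swap
  let τ : ℕ → s → (s × Bool → ℝ) → ℝ := fun t e y =>
    if b e then 1 - ramp (y (e, true) + y (e, false) - t) else ramp (y (e, true) + y (e, false) - t)
  let g : ℕ → (s × Bool → ℝ) → ℝ := fun t y => ramp (1 - ∑ e, τ t e y)
  have hg : ∀ t y y' δ, (∀ i, |y i - y' i| ≤ δ) → |g t y - g t y'| ≤ (2 * s.card) * δ := by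
    intro t y y' δ h
    refine (ramp_lip _ _).trans ?_
    rw [show 1 - ∑ e, τ t e y - (1 - ∑ e, τ t e y') = ∑ e, (τ t e y' - τ t e y) by
      rw [sum_sub_distrib]; ring]
    refine (abs_sum_le_sum_abs _ _).trans ?_
    have : ∀ e : s, |τ t e y' - τ t e y| ≤ 2 * δ := by
      intro e
      have h1 := ramp_lip (y (e, true) + y (e, false) - t) (y' (e, true) + y' (e, false) - t)
      have h2 := abs_le.1 (h (e, true))
      have h3 := abs_le.1 (h (e, false))
      have h4 : |y (e, true) + y (e, false) - t - (y' (e, true) + y' (e, false) - t)| ≤ 2 * δ := by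
        rw [abs_le]; constructor <;> linarith [h2.1, h2.2, h3.1, h3.2]
      have h5 := abs_le.1 (h1.trans h4)
      simp only [τ]
      split_ifs <;> rw [abs_le] <;> constructor <;> linarith [h5.1, h5.2]
    refine (sum_le_sum fun e _ => this e).trans (le_of_eq ?_)
    simp only [sum_const, card_univ, Fintype.card_coe, nsmul_eq_mul]
    ring
  have hM : (0 : ℝ) ≤ 2 * s.card := by positivity
  have hgc := fun t => continuous_of_lip (hg t) hM
  -- value of `g` when all ramps are saturated
  have hval : ∀ (t : ℕ) (y : s × Bool → ℝ) (x : G.edgeSet → Bool),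
      (∀ e : s, (x e = true ∧ 1 ≤ y (e, true) + y (e, false) - t) ∨
        (x e = false ∧ y (e, true) + y (e, false) - t ≤ 0)) →
      g t y = {x : G.edgeSet → Bool | ∀ e ∈ s, x e = b e}.indicator 1 x := by
    intro t y x h
    have h1 : ∀ e : s, τ t e y = if x e = b e then 0 else 1 := by
      intro e
      simp only [τ]
      rcases h e with ⟨h1, h2⟩ | ⟨h1, h2⟩
      · rw [ramp_of_one_le h2, h1]
        cases b e <;> simp
      · rw [ramp_of_nonpos h2, h1]
        cases b e <;> simp
    simp only [g, h1, Set.indicator, Set.mem_ofPred_eq, Pi.one_apply]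
    split_ifs with hx
    · rw [sum_eq_zero fun e _ => if_pos (hx e.1 e.2)]
      exact ramp_of_one_le (by norm_num)
    · push Not at hx
      obtain ⟨e, he, hx⟩ := hx
      refine ramp_of_nonpos ?_
      have := single_le_sum (f := fun e : s => if x e = b e then (0 : ℝ) else 1)
        (fun e _ => by split_ifs <;> norm_num) (mem_univ ⟨e, he⟩)
      simp only [hx, if_false] at this
      linarith
  have hfin : ∀ t : ℕ, ∀ᶠ n in atTop,
      |∫ ω, g t (fun j => Y (H n).spanningCoe t (Z ω) (d j)) ∂P -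
        (ust (H n)).real {x | ∀ e ∈ s, x e = b e}| ≤
      (2 * s.card) * (2 * (1 / 2) ^ t) +
        Fintype.card (s × Bool) * (2 * Real.exp (-((t - 1) / 2) / 2)) := by
    intro t
    have hd : ∀ᶠ n in atTop, ∀ j, (H n).Adj (d j).1 (d j).2 := by
      rw [eventually_all]
      rintro ⟨e, _ | _⟩
      · exact exh_ev hH (hrep2 e).symm
      · exact exh_ev hH (hrep2 e)
    filter_upwards [hd] with n hn
    have := (hH.1 n).fintype
    rw [ust_real]
    refine key_finite hZ (H n) (hH.2.1 n) d hn (g := g t) hM (fun _ => ramp_nonneg _)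
      (fun _ => ramp_le_one _) (hg t) t ((t - 1) / 2)
      (F := fun T => {x : G.edgeSet → Bool | ∀ e ∈ s, x e = b e}.indicator 1 (indE G T))
      (fun T => Set.indicator_nonneg (fun _ _ => zero_le_one) _)
      (fun T => Set.indicator_le_self' (fun _ _ => zero_le_one) _) ?_
    intro T z hz
    refine hval t (fun j => z j + t * indAdj T (d j)) (indE G T) ?_
    · intro e
      have h4 := abs_lt.1 (hz (e, true))
      have h5 := abs_lt.1 (hz (e, false))
      simp only [d, indAdj, indE, hrep1 e, mem_edgeSet, if_true, Bool.false_eq_true, if_false,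
        Prod.fst_swap, Prod.snd_swap]
      by_cases hT : T.Adj (rep e).1 (rep e).2
      · left
        simp only [hT, hT.symm, if_true, decide_true, true_and]
        linarith [h4.1, h4.2, h5.1, h5.2]
      · right
        have hT' : ¬ T.Adj (rep e).2 (rep e).1 := fun h => hT h.symm
        simp only [hT, hT', if_false, decide_false, true_and]
        linarith [h4.1, h4.2, h5.1, h5.2]
  have hms : MeasurableSet {ω | ∀ e ∈ s, Phi G (Z ω) e.1 = b e} := by
    have : {ω | ∀ e ∈ s, Phi G (Z ω) e.1 = b e} =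
        ⋂ e ∈ s, (fun ω => Phi G (Z ω) e.1) ⁻¹' {b e} := by
      ext ω; simp
    rw [this]
    exact Finset.measurableSet_biInter _ fun e _ =>
      measurable_Phi measurable_const hZ.1 e.1 (measurableSet_singleton _)
  have hlim : Tendsto (fun t : ℕ => ∫ ω, g t (fun j => Y G t (Z ω) (d j)) ∂P) atTop
      (𝓝 (P.real {ω | ∀ e ∈ s, Phi G (Z ω) e.1 = b e})) := by
    rw [← integral_indicator_one hms]
    refine tendsto_integral_of_dominated_convergence (fun _ => 1) ?_ (integrable_const _) ?_ ?_
    · intro t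
      exact ((hgc t).measurable.comp (measurable_pi_lambda _ fun j =>
        measurable_Y measurable_const hZ.1 t (d j))).aestronglyMeasurable
    · intro t
      refine ae_of_all _ fun ω => ?_
      rw [Real.norm_eq_abs, abs_of_nonneg (ramp_nonneg _)]
      exact ramp_le_one _
    · have hae := ae_all_iff.2 fun e : G.edgeSet => dichotomy hG hZ hH (hrep2 e)
      filter_upwards [hae] with ω hω
      refine tendsto_const_nhds.congr' ?_
      have hev : ∀ᶠ t : ℕ in atTop, ∀ e : s,
          (Phi G (Z ω) e.1.1 = true ∧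
            1 ≤ Y G t (Z ω) (d (e, true)) + Y G t (Z ω) (d (e, false)) - t) ∨
          (Phi G (Z ω) e.1.1 = false ∧
            Y G t (Z ω) (d (e, true)) + Y G t (Z ω) (d (e, false)) - t ≤ 0) := by
        rw [eventually_all]
        intro e
        have e1 : d (e, true) = ((rep e).1, (rep e).2) := rfl
        have e2 : d (e, false) = ((rep e).2, (rep e).1) := rfl
        rw [e1, e2, hrep1 e]
        rcases hω e with h | h
        · have h1 : Phi G (Z ω) s((rep e).1, (rep e).2) = true := by
            simp only [Phi, Sym2.lift_mk, decide_eq_true_eq]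
            filter_upwards [h] with t ht
            have : (0 : ℝ) ≤ t := by positivity
            linarith
          filter_upwards [h, eventually_ge_atTop 2] with t ht ht2
          have : (2 : ℝ) ≤ t := by exact_mod_cast ht2
          exact Or.inl ⟨h1, by linarith⟩
        · have h1 : Phi G (Z ω) s((rep e).1, (rep e).2) = false := by
            simp only [Phi, Sym2.lift_mk, decide_eq_false_iff_not]
            intro h'
            obtain ⟨t, ht1, ht2⟩ := (h.and h').exists
            have : (0 : ℝ) ≤ t := by positivity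
            linarith
          filter_upwards [h] with t ht
          have : (0 : ℝ) ≤ t := by positivity
          exact Or.inr ⟨h1, by linarith⟩
      filter_upwards [hev] with t ht
      rw [hval t (fun j => Y G t (Z ω) (d j)) (fun e => Phi G (Z ω) e.1) ht]
      simp only [Set.indicator, Set.mem_ofPred_eq, Pi.one_apply]
  have herr : Tendsto (fun t : ℕ => (2 * s.card : ℝ) * (2 * (1 / 2) ^ t) +
        Fintype.card (s × Bool) * (2 * Real.exp (-((t - 1) / 2) / 2))) atTop (𝓝 0) := by
    have h1 := tendsto_pow_atTop_nhds_zero_of_lt_one (r := (1 / 2 : ℝ)) (by norm_num) (by norm_num)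
    have h2 : Tendsto (fun t : ℕ => Real.exp (-(((t : ℝ) - 1) / 2) / 2)) atTop (𝓝 0) := by
      refine Real.tendsto_exp_atBot.comp ?_
      refine Tendsto.atBot_div_const (by norm_num) (tendsto_neg_atTop_atBot.comp ?_)
      exact Tendsto.atTop_div_const (by norm_num)
        (tendsto_atTop_add_const_right _ (-1) tendsto_natCast_atTop_atTop)
    have := ((h1.const_mul 2).const_mul (2 * s.card : ℝ)).add
      ((h2.const_mul 2).const_mul (Fintype.card (s × Bool) : ℝ))
    simpa using this
  rw [Metric.tendsto_atTop]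
  intro ε hε
  obtain ⟨t, ht1, ht2⟩ := ((herr.eventually (gt_mem_nhds (by linarith : (0 : ℝ) < ε / 3))).and
    ((Metric.tendsto_nhds.1 hlim) (ε / 3) (by linarith))).exists
  have h3 := (Metric.tendsto_nhds.1 (tendsto_Y_integral hG hZ hH d (g := g t)
    (fun _ => ramp_nonneg _) (fun _ => ramp_le_one _) (hgc t) t)) (ε / 3) (by linarith)
  obtain ⟨n₀, hn₀⟩ := eventually_atTop.1 ((hfin t).and h3)
  refine ⟨n₀, fun n hn => ?_⟩
  obtain ⟨h4, h5⟩ := hn₀ n hn
  rw [Real.dist_eq] at ht2 h5 ⊢
  rw [abs_le] at h4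
  rw [abs_lt] at ht2 h5 ⊢
  constructor <;> linarith [h4.1, h4.2, h5.1, h5.2, ht2.1, ht2.2]

theorem tendsto_ust (hG : LocFin G) (hZ : IsNoise P G Z) {H : ℕ → G.Subgraph}
    (hH : IsExhaustion G H) (f : BoundedContinuousFunction (G.edgeSet → Bool) ℝ) :
    Tendsto (fun n => ∫ x, f x ∂ust (H n)) atTop
      (𝓝 (∫ x, f x ∂P.map fun ω (e : G.edgeSet) => Phi G (Z ω) e.1)) := by
  have hm : Measurable fun ω (e : G.edgeSet) => Phi G (Z ω) e.1 :=
    measurable_pi_lambda _ fun e => measurable_Phi measurable_const hZ.1 e.1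
  let μ : ℕ → ProbabilityMeasure (G.edgeSet → Bool) := fun n =>
    ⟨ust (H n), ust_prob _ (hH.1 n) (hH.2.1 n)⟩
  let ν : ProbabilityMeasure (G.edgeSet → Bool) :=
    ⟨P.map fun ω (e : G.edgeSet) => Phi G (Z ω) e.1,
      Measure.isProbabilityMeasure_map hm.aemeasurable⟩
  let S : Set (Set (G.edgeSet → Bool)) :=
    {C | ∃ (s : Finset G.edgeSet) (b : G.edgeSet → Bool), C = {x | ∀ e ∈ s, x e = b e}}
  have hopen : ∀ (s : Finset G.edgeSet) (b : G.edgeSet → Bool),
      IsOpen {x : G.edgeSet → Bool | ∀ e ∈ s, x e = b e} := by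
    intro s b
    exact isOpen_set_pi (s := fun e => {b e}) s.finite_toSet fun _ _ => isOpen_discrete _
  have hS : IsPiSystem S := by
    rintro _ ⟨s, b, rfl⟩ _ ⟨s', b', rfl⟩ ⟨x, hx, hx'⟩
    refine ⟨s ∪ s', x, ?_⟩
    ext y
    simp only [Set.mem_inter_iff, Set.mem_ofPred_eq, mem_union] at hx hx' ⊢
    constructor
    · rintro ⟨h1, h2⟩ e (he | he)
      · rw [h1 e he, hx e he]
      · rw [h2 e he, hx' e he]
    · intro h
      exact ⟨fun e he => by rw [h e (Or.inl he), hx e he],
        fun e he => by rw [h e (Or.inr he), hx' e he]⟩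
  have := hS.tendsto_probabilityMeasure_of_tendsto_of_mem (μ := μ) (ν := ν) (l := atTop)
    (by rintro _ ⟨s, b, rfl⟩; exact (hopen s b).measurableSet)
    (by
      intro u hu x hx
      obtain ⟨I, w, h1, h2⟩ := isOpen_pi_iff.1 hu x hx
      refine ⟨_, ⟨I, x, rfl⟩, (hopen I x).mem_nhds fun _ _ => rfl, fun y hy => h2 fun e he => ?_⟩
      rw [hy e he]
      exact (h1 e he).2)
    (by
      rintro _ ⟨s, b, rfl⟩
      rw [← NNReal.tendsto_coe]
      simp only [← ProbabilityMeasure.measureReal_eq_coe_coeFn]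
      have h1 := tendsto_cylinder hG hZ hH s b
      have h2 : (ν : Measure (G.edgeSet → Bool)).real {x | ∀ e ∈ s, x e = b e} =
          P.real {ω | ∀ e ∈ s, Phi G (Z ω) e.1 = b e} :=
        map_measureReal_apply hm (hopen s b).measurableSet
      rw [h2]
      exact h1)
  exact ProbabilityMeasure.tendsto_iff_forall_integral_tendsto.1 this f

end

end Vale.Agent.P143
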