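import Vale.Agent.P143.Limit

/-!
Independent Laplace noise on darts from i.i.d. uniform vertex labels, and the final factor map.
-/

open Finset SimpleGraph Filter Topology MeasureTheory ProbabilityTheory

namespace Vale.Agent.P143

open scoped Classical

variable {V W : Type}

/-- A measurable map turning one uniform variable into countably many Laplace variables. -/
noncomputable def tau : unitInterval → (Bool × ℕ → ℝ) :=
  Classical.choose (Measure.exists_measurable_map_eq (Measure.infinitePi fun _ : Bool × ℕ => lap))

lemma measurable_tau : Measurable tau :=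
  (Classical.choose_spec
    (Measure.exists_measurable_map_eq (Measure.infinitePi fun _ : Bool × ℕ => lap))).1

lemma map_tau : (volume : Measure unitInterval).map tau = Measure.infinitePi fun _ => lap :=
  (Classical.choose_spec
    (Measure.exists_measurable_map_eq (Measure.infinitePi fun _ : Bool × ℕ => lap))).2

/-- Rank of `v` among the neighbours of `u`. -/
noncomputable def rank (G : SimpleGraph V) (O : V → ℝ) (u v : V) : ℕ :=
  {w | G.Adj u w ∧ O w < O v}.ncard

/-- The noise on darts. -/
noncomputable def noise (G : SimpleGraph V) (U : V → unitInterval) (p : V × V) : ℝ :=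
  tau (U p.1) (true, rank G (fun w => tau (U w) (false, 0)) p.1 p.2)

lemma rank_lt {G : SimpleGraph V} (hG : LocFin G) {O : V → ℝ} {u v v' : V} (h : G.Adj u v)
    (hO : O v < O v') : rank G O u v < rank G O u v' := by
  refine Set.ncard_lt_ncard ⟨fun w hw => ⟨hw.1, hw.2.trans hO⟩, fun hs => ?_⟩
    ((hG u).subset fun w hw => hw.1)
  exact lt_irrefl _ (hs (show v ∈ {w | G.Adj u w ∧ O w < O v'} from ⟨h, hO⟩)).2

lemma measurable_rank [Countable V] {Ω : Type} [MeasurableSpace Ω] {K : Ω → SimpleGraph V}
    (hK : Measurable K) {O : Ω → V → ℝ} (hO : Measurable O) (u v : V) :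
    Measurable fun ω => rank (K ω) (O ω) u v := by
  refine measurable_ncard.comp (measurable_set_iff.2 fun w => ?_)
  refine (measurable_iff_adj.1 hK u w).and ?_
  exact (measurableSet_lt ((measurable_pi_apply w).comp hO) ((measurable_pi_apply v).comp hO)).mem

lemma measurable_eval_nat {Ω : Type} [MeasurableSpace Ω] {f : Ω → ℕ → ℝ} (hf : Measurable f)
    {n : Ω → ℕ} (hn : Measurable n) : Measurable fun ω => f ω (n ω) := by
  have : Measurable fun p : (ℕ → ℝ) × ℕ => p.1 p.2 :=
    measurable_from_prod_countable_left fun k => measurable_pi_apply k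
  exact this.comp (hf.prodMk hn)

lemma measurable_noise [Countable V] {Ω : Type} [MeasurableSpace Ω] {K : Ω → SimpleGraph V}
    (hK : Measurable K) {U : Ω → V → unitInterval} (hU : Measurable U) :
    Measurable fun ω => noise (K ω) (U ω) := by
  refine measurable_pi_lambda _ fun p => ?_
  refine measurable_eval_nat (f := fun ω k => tau (U ω p.1) (true, k)) ?_ ?_
  · exact measurable_pi_lambda _ fun k =>
      (measurable_pi_apply _).comp (measurable_tau.comp ((measurable_pi_apply _).comp hU))
  · exact measurable_rank hK (measurable_pi_lambda _ fun w =>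
      (measurable_pi_apply (false, 0)).comp
        (measurable_tau.comp ((measurable_pi_apply w).comp hU))) _ _

instance : IsProbabilityMeasure (iid V) := by unfold iid; infer_instance

lemma map_split : (iid V).map (fun U => ((fun q : V × ℕ => tau (U q.1) (false, q.2)),
      fun q : V × ℕ => tau (U q.1) (true, q.2))) =
    (Measure.infinitePi fun _ : V × ℕ => lap).prod (Measure.infinitePi fun _ : V × ℕ => lap) := by
  have h1 := Measure.infinitePi_map_pi (fun _ : V => (volume : Measure unitInterval))
    (f := fun _ => tau) fun _ => measurable_tau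
  simp only [map_tau] at h1
  have h2 := Measure.infinitePi_map_curry_symm (fun (_ : V) (_ : Bool × ℕ) => lap)
  have h3 := Measure.map_infinitePi_infinitePi_of_inj (P := fun _ : V × (Bool × ℕ) => lap)
    (f := fun q : Bool × (V × ℕ) => (q.2.1, (q.1, q.2.2))) (by
      rintro ⟨a, b, c⟩ ⟨a', b', c'⟩ h
      simp only [Prod.mk.injEq] at h
      simp [h.1, h.2.1, h.2.2])
  have h4 := Measure.infinitePi_map_curry (fun (_ : Bool) (_ : V × ℕ) => lap)
  have h5 := Measure.infinitePi_map_eval_prod
    (P := fun _ : Bool => Measure.infinitePi fun _ : V × ℕ => lap) (i := false) (j := true)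
    (by simp)
  have hm : Measurable fun (U : V → unitInterval) (v : V) => tau (U v) :=
    measurable_pi_lambda _ fun v => measurable_tau.comp (measurable_pi_apply v)
  rw [← h5, ← h4, ← h3, ← h2, ← h1, Measure.map_map (by fun_prop) (by fun_prop),
    Measure.map_map (by fun_prop) (by fun_prop), Measure.map_map (by fun_prop) (by fun_prop),
    Measure.map_map (by fun_prop) hm]
  rfl

lemma ae_injective [Countable V] : ∀ᵐ O ∂(Measure.infinitePi fun _ : V × ℕ => lap),
    ∀ w w' : V, w ≠ w' → O (w, 0) ≠ O (w', 0) := by
  refine ae_all_iff.2 fun w => ae_all_iff.2 fun w' => ?_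
  by_cases h : w = w'
  · exact ae_of_all _ fun _ h' => absurd h h'
  have h1 := Measure.infinitePi_map_eval_prod (P := fun _ : V × ℕ => lap) (i := (w, 0))
    (j := (w', 0)) (by simp [h])
  have hd : MeasurableSet {p : ℝ × ℝ | p.1 = p.2} := measurableSet_eq_fun measurable_fst measurable_snd
  have h2 : (lap.prod lap) {p : ℝ × ℝ | p.1 = p.2} = 0 := by
    rw [Measure.prod_apply hd]
    have : ∀ x : ℝ, Prod.mk x ⁻¹' {p : ℝ × ℝ | p.1 = p.2} = {x} := by
      intro x; ext y; simp [eq_comm]
    simp [this]
  rw [← h1, Measure.map_apply (by fun_prop) hd] at h2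
  filter_upwards [measure_eq_zero_iff_ae_notMem.1 h2] with O hO _ using hO

lemma isNoise_noise [Countable V] {G : SimpleGraph V} (hG : LocFin G) :
    IsNoise (iid V) G (noise G) := by
  refine ⟨measurable_noise measurable_const measurable_id, fun ι _ d hd hadj => ?_⟩
  let R : (V × ℕ → ℝ) × (V × ℕ → ℝ) → ι → ℝ := fun q i =>
    q.2 ((d i).1, rank G (fun w => q.1 (w, 0)) (d i).1 (d i).2)
  have hR : Measurable R := by
    refine measurable_pi_lambda _ fun i => ?_
    refine measurable_eval_nat (f := fun (q : (V × ℕ → ℝ) × (V × ℕ → ℝ)) k => q.2 ((d i).1, k))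
      (by fun_prop) (measurable_rank measurable_const (by fun_prop) _ _)
  have hm : Measurable fun (U : V → unitInterval) => ((fun q : V × ℕ => tau (U q.1) (false, q.2)),
      fun q : V × ℕ => tau (U q.1) (true, q.2)) := by
    refine Measurable.prodMk (measurable_pi_lambda _ fun q => ?_) (measurable_pi_lambda _ fun q => ?_)
    all_goals exact (measurable_pi_apply _).comp (measurable_tau.comp (measurable_pi_apply _))
  have h1 : (iid V).map (fun U i => noise G U (d i)) = ((Measure.infinitePi fun _ : V × ℕ => lap).prod
      (Measure.infinitePi fun _ : V × ℕ => lap)).map R := by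
    rw [← map_split, Measure.map_map hR hm]
    rfl
  rw [h1]
  ext S hS
  rw [Measure.map_apply hR hS, Measure.prod_apply (hR hS)]
  have h2 : ∀ᵐ O ∂(Measure.infinitePi fun _ : V × ℕ => lap),
      (Measure.infinitePi fun _ : V × ℕ => lap) (Prod.mk O ⁻¹' (R ⁻¹' S)) = lapPi ι S := by
    filter_upwards [ae_injective (V := V)] with O hO
    have h3 := Measure.map_infinitePi_infinitePi_of_inj (P := fun _ : V × ℕ => lap)
      (f := fun i => ((d i).1, rank G (fun w => O (w, 0)) (d i).1 (d i).2)) (by
        intro i j h
        simp only [Prod.mk.injEq] at h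
        obtain ⟨h1, h2⟩ := h
        apply hd
        refine Prod.ext h1 ?_
        by_contra hne
        rw [← h1] at h2
        rcases lt_or_gt_of_ne (hO _ _ hne) with h | h
        · exact (rank_lt hG (O := fun w => O (w, 0)) (hadj i) h).ne h2
        · exact (rank_lt hG (O := fun w => O (w, 0)) (h1 ▸ hadj j) h).ne' h2)
    rw [Measure.infinitePi_eq_pi (fun _ : ι => lap)] at h3
    rw [lapPi, ← h3, Measure.map_apply (by fun_prop) hS]
    rfl
  rw [lintegral_congr_ae h2]
  simp

/-- Balls. -/
def ball (G : SimpleGraph V) (o : V) : ℕ → Set V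
  | 0 => {o}
  | n + 1 => ball G o n ∪ ⋃ v ∈ ball G o n, G.neighborSet v

lemma ball_finite {G : SimpleGraph V} (hG : LocFin G) (o : V) (n : ℕ) : (ball G o n).Finite := by
  induction n with
  | zero => exact Set.finite_singleton o
  | succ n ih => exact ih.union (ih.biUnion fun v _ => hG v)

lemma ball_mono (G : SimpleGraph V) (o : V) : Monotone (ball G o) :=
  monotone_nat_of_le_succ fun _ => Set.subset_union_left

lemma mem_ball_succ {G : SimpleGraph V} {o v w : V} {n : ℕ} (hv : v ∈ ball G o n)
    (h : G.Adj v w) : w ∈ ball G o (n + 1) :=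
  Or.inr (Set.mem_biUnion hv h)

lemma exists_mem_ball {G : SimpleGraph V} {o v : V} (h : G.Reachable o v) :
    ∃ n, v ∈ ball G o n := by
  rw [reachable_iff_reflTransGen] at h
  induction h with
  | refl => exact ⟨0, rfl⟩
  | tail _ h ih =>
    obtain ⟨n, hn⟩ := ih
    exact ⟨n + 1, mem_ball_succ hn h⟩

lemma ball_connected (G : SimpleGraph V) (o : V) (n : ℕ) :
    ((⊤ : G.Subgraph).induce (ball G o n)).Connected := by
  have ho : ∀ n, o ∈ ball G o n := fun n => ball_mono G o (Nat.zero_le n) rfl
  have key : ∀ (m : ℕ) (hm : m ≤ n) (v : V) (hv : v ∈ ball G o m),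
      ((⊤ : G.Subgraph).induce (ball G o n)).coe.Reachable ⟨o, ho n⟩ ⟨v, ball_mono G o hm hv⟩ := by
    intro m
    induction m with
    | zero =>
      intro _ v hv
      obtain rfl : v = o := hv
      exact Reachable.rfl
    | succ m ih =>
      intro hm v hv
      rcases hv with hv | hv
      · exact ih (by omega) v hv
      · obtain ⟨w, hw, hwv⟩ := Set.mem_iUnion₂.1 hv
        refine (ih (by omega) w hw).trans (Adj.reachable ?_)
        exact ⟨ball_mono G o (by omega) hw, ball_mono G o hm (mem_ball_succ hw hwv), hwv⟩
  rw [Subgraph.connected_iff', connected_iff_exists_forall_reachable]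
  exact ⟨⟨o, ho n⟩, fun v => key n le_rfl v.1 v.2⟩

lemma exists_exhaustion {G : SimpleGraph V} (hG : LocFin G) (hc : G.Connected) :
    ∃ H, IsExhaustion G H := by
  obtain ⟨o⟩ := hc.nonempty
  refine ⟨fun n => (⊤ : G.Subgraph).induce (ball G o n), fun n => ball_finite hG o n,
    ball_connected G o, fun m n h => Subgraph.induce_mono_right (ball_mono G o h), ?_⟩
  refine Subgraph.ext ?_ ?_
  · rw [Subgraph.verts_iSup]
    exact Set.eq_univ_of_forall fun v => Set.mem_iUnion.2 (exists_mem_ball (hc o v))
  · ext u v
    rw [Subgraph.iSup_adj]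
    constructor
    · rintro ⟨n, hn⟩
      exact hn.2.2
    · intro h
      obtain ⟨n, hn⟩ := exists_mem_ball (hc o u)
      exact ⟨n + 1, ball_mono G o (Nat.le_succ n) hn, mem_ball_succ hn h, h⟩

lemma countable_of_connected {G : SimpleGraph V} (hG : LocFin G) (hc : G.Connected) :
    Countable V := by
  obtain ⟨o⟩ := hc.nonempty
  have : (Set.univ : Set V) = ⋃ n, ball G o n :=
    (Set.eq_univ_of_forall fun v => Set.mem_iUnion.2 (exists_mem_ball (hc o v))).symm
  exact Set.countable_univ_iff.1
    (this ▸ Set.countable_iUnion fun n => (ball_finite hG o n).countable)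

/-- The factor map. -/
noncomputable def factor (G : SimpleGraph V) (U : V → unitInterval) : Sym2 V → Bool :=
  Phi G (noise G U)

theorem isFUSF_factor {G : SimpleGraph V} (hG : LocFin G) (hc : G.Connected) :
    IsFUSF G ((iid V).map fun U (e : G.edgeSet) => factor G U e.1) := by
  have := countable_of_connected hG hc
  refine ⟨Measure.isProbabilityMeasure_map (Measurable.aemeasurable ?_),
    exists_exhaustion hG hc, fun H hH f => tendsto_ust hG (isNoise_noise hG) hH f⟩
  exact measurable_pi_lambda _ fun e =>
    measurable_Phi measurable_const (isNoise_noise hG).1 e.1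

theorem measurable_factor [Countable V] (e : Sym2 V) :
    Measurable fun p : SimpleGraph V × (V → unitInterval) => factor p.1 p.2 e :=
  measurable_Phi measurable_fst (measurable_noise measurable_fst measurable_snd) e

theorem factor_iso {G : SimpleGraph V} {G' : SimpleGraph W} (φ : G ≃g G') (U : V → unitInterval)
    (e : Sym2 V) : factor G' (fun v => U (φ.symm v)) (e.map φ) = factor G U e := by
  have h1 : noise G' (fun v => U (φ.symm v)) ∘ Prod.map φ φ = noise G U := by
    funext p
    simp only [noise, Function.comp_apply, Prod.map_fst, Prod.map_snd, RelIso.symm_apply_apply]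
    congr 2
    unfold rank
    rw [← Set.ncard_image_of_injective _ φ.injective]
    congr 1
    ext w
    obtain ⟨w, rfl⟩ := φ.surjective w
    simp only [Set.mem_ofPred_eq, RelIso.symm_apply_apply, φ.map_adj_iff,
      φ.injective.mem_set_image]
  have h2 : ∀ t p, Y G' t (noise G' fun v => U (φ.symm v)) (Prod.map φ φ p) =
      Y G t (noise G U) p := by
    intro t p
    have := euler_drift_comp (K := G') (K' := G) φ φ.injective (fun u v => φ.map_adj_iff)
      (fun u _ _ => φ.surjective u) (1 / (13122 ^ t : ℕ)) (noise G' fun v => U (φ.symm v))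
      (t * 13122 ^ t)
    rw [h1] at this
    exact congrFun this p
  induction e using Sym2.ind with
  | h u v =>
    simp only [factor, Phi, Sym2.map_mk, Sym2.lift_mk, ← h2]
    rfl

end Vale.Agent.P143
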